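import Crest.Agent.R264.Split.Theta

set_option autoImplicit false
set_option linter.unusedSectionVars false
open Set Filter Topology Metric Complex

namespace Crest.Agent.R264

variable {E F G : Type}
  [NormedAddCommGroup E] [NormedSpace ℂ E] [NormedSpace ℝ E] [IsScalarTower ℝ ℂ E] [FiniteDimensional ℂ E]
  [NormedAddCommGroup F] [NormedSpace ℂ F] [NormedSpace ℝ F] [IsScalarTower ℝ ℂ F] [FiniteDimensional ℂ F]
  [NormedAddCommGroup G] [NormedSpace ℂ G] [NormedSpace ℝ G] [IsScalarTower ℝ ℂ G] [FiniteDimensional ℂ G]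

variable {L : Type} [LieRing L] [LieAlgebra ℝ L] [FiniteDimensional ℝ L] {ι : L →ₗ[ℝ] (E → E)} {X : Set E}
  {Z : L} {x₀ : E} {n r : ℕ} {𝔡 : (Fin r → ℂ) →ₗ[ℂ] (E → E)} {c : L → Fin r → ℂ} {g : ℂ × E → E}
  {τ : E → Fin r → ℂ} {φ : ℝ → E → E}

theorem Th.inj (t : Th X ι Z 𝔡 c g τ) {z : E} (hz : z ∈ X) {v w : Fin r → ℂ} (e : 𝔡 v z = 𝔡 w z) : v = w := by
  rw [← t.dτ v z hz, e, t.dτ w z hz]

theorem Th.bih0 (t : Th X ι Z 𝔡 c g τ) (f : Fr X ι Z x₀ 𝔡 c) (hcx : CxVal X (range ι)) (hX : CM n X)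
    (d : Disc X φ g) : ∃ s k, Mfd s ((fun z => g (0, z)) '' X) ∧
      Bih X ((fun z => (τ z, g (0, z))) '' X) (fun z => (τ z, g (0, z))) k ∧
      ∀ p ∈ (fun z => (τ z, g (0, z))) '' X,
        ∀ᶠ q in 𝓝[univ ×ˢ ((fun z => g (0, z)) '' X)] p, q ∈ (fun z => (τ z, g (0, z))) '' X := by
  have hM := hX.mfd
  obtain ⟨s, mY, tY⟩ := retract hM hX.conn.isPreconnected d.an0 d.maps0 fun x hx => d.idem sp_b0 hx
  set ρ := fun z => g (0, z) with hρ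
  have mM : Mfd (r + s) (univ ×ˢ (ρ '' X) : Set ((Fin r → ℂ) × E)) := by
    simpa using (Mfd.of_isOpen (E := Fin r → ℂ) isOpen_univ).prod mY
  have aΘ : AnalyticOn ℂ (fun z => (τ z, ρ z)) X := t.an.prod d.an0
  have mΘ : MapsTo (fun z => (τ z, ρ z)) X (univ ×ˢ (ρ '' X)) := fun z hz => ⟨trivial, z, hz, rfl⟩
  have DΘ : ∀ z ∈ X, ∀ v ∈ Tan X z, Dv X (fun z => (τ z, ρ z)) z v = (Dv X τ z v, Dv X ρ z v) := fun z hz v hv =>
    Dv_prod (t.an.differentiableOn z hz) (d.an0.differentiableOn z hz) hv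
  have imm : ∀ z ∈ X, ∀ v ∈ Tan X (ρ z), Dv X (fun z => (τ z, ρ z)) (ρ z) v = 0 → v = 0 := fun z hz v hv h0 => by
    rw [DΘ _ (d.maps0 hz) v hv, Prod.mk_eq_zero] at h0
    exact t.imm z hz v hv h0.1 h0.2
  obtain rfl : n = r + s := by
    obtain ⟨z, hz⟩ := hX.conn.nonempty
    have hy := d.maps0 hz
    have hy' : ρ z ∈ ρ '' X := ⟨z, hz, rfl⟩
    let e := (Dv X (fun z => (τ z, ρ z)) (ρ z) : E →ₗ[ℂ] (Fin r → ℂ) × E).domRestrict (Tan X (ρ z))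
    have h1 : LinearMap.range e = Tan (univ ×ˢ (ρ '' X)) ((0 : Fin r → ℂ), ρ z) := by
      rw [Tan_prod (mem_univ _) hy', Tan_of_mem_nhds univ_mem, tY _ hy']
      refine le_antisymm ?_ ?_
      · rintro _ ⟨v, rfl⟩
        refine ⟨trivial, v, v.2, ?_⟩
        exact (congrArg Prod.snd (DΘ _ hy v v.2)).symm
      · rintro ⟨u, _⟩ ⟨-, w, hw, rfl⟩
        have h2 := (Tan X (ρ z)).add_mem hw ((f.vf (u - Dv X τ (ρ z) w)).tan _ hy)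
        refine ⟨⟨_, h2⟩, (DΘ _ hy _ h2).trans ?_⟩
        obtain ⟨a, ha⟩ := f.val hcx hy (u - Dv X τ (ρ z) w)
        rw [map_add, map_add, t.dτ _ _ hy, ← ha, t.kill a _ hy, add_sub_cancel, add_zero]
        rfl
    rw [← hM.finrank_tan hy, ← mM.finrank_tan (x := (0, ρ z)) ⟨trivial, hy'⟩, ← h1, LinearMap.finrank_range_of_inj]
    exact LinearMap.ker_eq_bot.1 (eq_bot_iff.2 fun v hv => Subtype.ext (imm z hz v v.2 hv))
  have loc : ∀ z ∈ X, ∃ O O' k, IsOpen O ∧ ρ z ∈ O ∧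
      Bih (X ∩ O) (univ ×ˢ (ρ '' X) ∩ O') (fun z => (τ z, ρ z)) k := fun z hz => by
    obtain ⟨O, O', k, oO, -, xO, -, b⟩ := loc_inv hM mM (d.maps0 hz) univ_mem (aΘ.mono inter_subset_left)
      (mΘ.mono_left inter_subset_left) (imm z hz)
    exact ⟨O, O', k, oO, xO, b⟩
  have ev : ∀ z ∈ X, ∀ O, IsOpen O → ρ z ∈ O → ∀ᶠ ζ in 𝓝 (0 : ℂ), ζ ∈ ball (0 : ℂ) 1 ∧ g (ζ, z) ∈ X ∩ O :=
    fun z hz O oO xO => (isOpen_ball.eventually_mem sp_b0).and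
      ((d.tend0 hz).eventually (inter_mem_nhdsWithin X (oO.mem_nhds xO)))
  refine ⟨s, _, mY, sp_bih hM mM aΘ mΘ (fun z hz z' hz' e => ?_) fun z hz v hv h0 => ?_⟩
  · obtain ⟨O, O', k, oO, xO, b⟩ := loc z hz
    obtain ⟨e1, e2⟩ := Prod.mk.inj e
    refine d.eq_of hz hz' ?_
    filter_upwards [ev z hz O oO xO, ev z' hz' O oO (e2 ▸ xO)] with ζ h1 h2
    rw [← b.gf _ h1.2, ← b.gf _ h2.2, t.hom _ h1.1 z hz, t.hom _ h1.1 z' hz', e1]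
    exact congrArg (fun y => k (_, y)) ((d.idem h1.1 hz).trans (e2.trans (d.idem h1.1 hz').symm))
  · obtain ⟨O, O', k, oO, xO, b⟩ := loc z hz
    rw [DΘ z hz v hv, Prod.mk_eq_zero] at h0
    refine d.Dv_eq hM hz hv ?_
    filter_upwards [ev z hz O oO xO] with ζ ⟨h1, h2⟩
    have dg := (sp_slice d.an h1).differentiableOn z hz
    have mg : ∀ᶠ y in 𝓝[X] z, g (ζ, y) ∈ X := eventually_mem_nhdsWithin.mono (d.maps ζ h1)
    have tw := Dv_mem_tan dg mg hv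
    have h3 := (b.Dv_left h2 (v := Dv X (fun y => g (ζ, y)) z v) (by rwa [Tan_inter (oO.mem_nhds h2.2)])).2
    rw [Dv_inter (oO.mem_nhds h2.2), DΘ _ h2.1 _ tw, ← Dv_comp dg (t.an.differentiableOn _ h2.1) mg hv,
      ← Dv_comp dg (d.an0.differentiableOn _ h2.1) mg hv,
      Dv_congr hz (eventually_mem_nhdsWithin.mono (t.hom ζ h1)), Dv_const_smul _ (t.an.differentiableOn z hz) hv,
      Dv_congr (g := ρ) hz (eventually_mem_nhdsWithin.mono fun y hy => d.idem h1 hy), h0.1, h0.2, smul_zero] at h3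
    rw [← h3]
    exact map_zero _

theorem Th.aut (t : Th X ι Z 𝔡 c g τ) (f : Fr X ι Z x₀ 𝔡 c) (h : LieRep X ι) (d : Disc X φ g)
    (hi : ∀ f g, Bih X X f g → ∀ a, push X X f g (ι a) ∈ range ι) {ψ ψ' : E → E} (b : Bih X X ψ ψ') {z z' : E}
    (hz : z ∈ X) (hz' : z' ∈ X) : τ (ψ (g (0, z'))) = τ (ψ (g (0, z))) := by
  obtain ⟨a₁, a₂, e⟩ := f.mem (τ (ψ (g (0, z))))
  obtain ⟨b₁, h1⟩ := hi _ _ b.symm (Z + a₂)
  obtain ⟨b₂, h2⟩ := hi _ _ b.symm a₁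
  have key : ∀ x ∈ X, Dv X ψ' (ψ (g (0, x))) (ι Z (ψ (g (0, x))) - I • 𝔡 (τ (ψ (g (0, z)))) (ψ (g (0, x)))) =
      𝔡 (c b₁ - I • c b₂) (g (0, x)) := fun x hx => by
    have hy := d.maps _ sp_b0 x hx
    have h3 := push_apply b.symm (ι (Z + a₂)) (b.mf hy)
    have h4 := push_apply b.symm (ι a₁) (b.mf hy)
    rw [b.gf _ hy] at h3 h4
    rw [map_sub 𝔡, map_smul 𝔡, Pi.sub_apply, Pi.smul_apply, ← t.valY b₁ x hx, ← t.valY b₂ x hx, h1, h2, h3, h4,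
      ← map_smul, ← map_sub, e, map_add]
    congr 1
    simp only [Pi.add_apply, Pi.smul_apply]
    match_scalars
    · ring
    · ring
    · linear_combination -I_mul_I
  have hy := d.maps _ sp_b0 z hz
  have hy' := d.maps _ sp_b0 z' hz'
  have h3 := key z hz
  rw [← t.eqZ _ (b.mf hy), sub_self, map_zero] at h3
  have h4 : c b₁ - I • c b₂ = 0 := t.inj hy (by rw [← h3, map_zero]; rfl)
  have h5 := key z' hz'
  have h6 := (b.symm.Dv_left (b.mf hy') ((Tan X _).sub_mem ((h.gen Z).vf.tan _ (b.mf hy'))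
    ((Tan X _).smul_mem I ((f.vf (τ (ψ (g (0, z))))).tan _ (b.mf hy'))))).2
  rw [h5, h4, map_zero, Pi.zero_apply, map_zero, eq_comm, sub_eq_zero, t.eqZ _ (b.mf hy')] at h6
  exact t.inj (b.mf hy') (smul_right_injective _ I_ne_zero h6)

theorem Th.loc_tr (t : Th X ι Z 𝔡 c g τ) (f : Fr X ι Z x₀ 𝔡 c) (hcx : CxVal X (range ι)) (hX : CM n X)
    (h : LieRep X ι) (d : Disc X φ g) {z : E} (hz : z ∈ X) : ∀ᶠ u in 𝓝 (τ z), ∃ ψ ψ' : E → E, Bih X X ψ ψ' ∧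
      (∀ x ∈ X, g (0, ψ x) = g (0, x)) ∧ τ (ψ z) = u := by
  let bL := Module.finBasis ℝ L
  have h1 := exp_strict hX (fun j => h.gen (bL j)) hz
  have e : ∀ q : Fin (Module.finrank ℝ L) → ℝ, ∑ j, q j • ι (bL j) = ι (∑ j, q j • bL j) := fun q => by simp
  simp only [e] at h1
  have h0 : fl X (ι (∑ j, (0 : Fin (Module.finrank ℝ L) → ℝ) j • bL j)) 1 z = z :=
    (h.gen _).fl_fix hz (by simp) 1
  obtain ⟨K, aK, hK⟩ := anOn_iff.1 t.an z hz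
  have h2 := (h0.symm ▸ aK.hasStrictFDerivAt.restrictScalars ℝ : HasStrictFDerivAt K
    ((fderiv ℂ K z).restrictScalars ℝ) (fl X (ι (∑ j, (0 : Fin (Module.finrank ℝ L) → ℝ) j • bL j)) 1 z)).comp 0 h1
  have h3 := h2.map_nhds_eq_of_surj (LinearMap.range_eq_top.2 fun v => by
    obtain ⟨a, ha⟩ := f.val hcx hz v
    refine ⟨bL.repr a, ?_⟩
    have h4 : ∑ j, bL.repr a j • ι (bL j) z = 𝔡 v z := by
      rw [← ha]
      conv_rhs => rw [← bL.sum_repr a, ← e, Finset.sum_apply]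
      rfl
    change fderiv ℂ K z _ = v
    simp only [ContinuousLinearMap.coe_coe, sum_apply, ContinuousLinearMap.smulRight_apply,
      ContinuousLinearMap.proj_apply]
    rw [h4, ← Dv_eq_fderiv hz aK.differentiableAt hK ((f.vf v).tan z hz), t.dτ v z hz])
  rw [h0, ← hK.self_of_nhdsWithin hz] at h3
  have h4 : Tendsto (fun q : Fin (Module.finrank ℝ L) → ℝ => fl X (ι (∑ j, q j • bL j)) 1 z) (𝓝 0) (𝓝[X] z) :=
    tendsto_nhdsWithin_iff.2 ⟨by simpa only [ContinuousAt, h0] using h1.continuousAt,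
      Eventually.of_forall fun q => (h.gen _).isFlow.maps 1 hz⟩
  rw [← h3]
  refine mem_of_superset (image_mem_map (h4.eventually hK)) ?_
  rintro _ ⟨q, hq, rfl⟩
  exact ⟨_, _, (h.gen _).isFlow.toIsGrp.bih 1, ((h.gen _).inv_iff d.an0).2 (t.kill _) 1, hq⟩

theorem Th.prod (t : Th X ι Z 𝔡 c g τ) (f : Fr X ι Z x₀ 𝔡 c) (hcx : CxVal X (range ι)) (hX : CM n X)
    (h : LieRep X ι) (d : Disc X φ g) (hi : ∀ f g, Bih X X f g → ∀ a, push X X f g (ι a) ∈ range ι) :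
    ∃ (s : ℕ) (D : Set (Fin r → ℂ)) (k : (Fin r → ℂ) × E → E), IsOpen D ∧ Bornology.IsBounded D ∧
      Mfd s ((fun z => g (0, z)) '' X) ∧ Bih X (D ×ˢ ((fun z => g (0, z)) '' X)) (fun z => (τ z, g (0, z))) k := by
  obtain ⟨s, k, mY, b, hop⟩ := t.bih0 f hcx hX d
  have inj : ∀ z ∈ X, ∀ z' ∈ X, τ z = τ z' → g (0, z) = g (0, z') → z = z' := fun z hz z' hz' e e' => by
    rw [← b.gf z hz, ← b.gf z' hz', e, e']
  have reach : ∀ z ∈ X, ∃ ψ ψ' : E → E, Bih X X ψ ψ' ∧ (∀ x ∈ X, g (0, ψ x) = g (0, x)) ∧ τ (ψ (g (0, z))) = τ z := by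
    intro z hz
    have hy := d.maps _ sp_b0 z hz
    have τ0 : τ (g (0, z)) = 0 := by rw [t.hom _ sp_b0 z hz, zero_smul]
    have m0 : (0 : Fin r → ℂ) ∈ τ '' {x | x ∈ X ∧ g (0, x) = g (0, z)} := ⟨_, ⟨hy, d.idem sp_b0 hz⟩, τ0⟩
    have st : StarConvex ℝ 0 (τ '' {x | x ∈ X ∧ g (0, x) = g (0, z)}) := by
      rintro _ ⟨x, hx, rfl⟩ p q hp hq hpq
      rw [smul_zero, zero_add]
      rcases (show q ≤ 1 by linarith).eq_or_lt with rfl | h1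
      · exact ⟨x, hx, (one_smul _ _).symm⟩
      · have h2 : (q : ℂ) ∈ ball (0 : ℂ) 1 := by rwa [mem_ball_zero_iff, norm_real, Real.norm_of_nonneg hq]
        exact ⟨_, ⟨d.maps _ h2 x hx.1, (d.idem h2 hx.1).trans hx.2⟩, t.hom _ h2 x hx.1⟩
    refine clopen_ind (A := {u | ∃ ψ ψ' : E → E, Bih X X ψ ψ' ∧ (∀ x ∈ X, g (0, ψ x) = g (0, x)) ∧
      τ (ψ (g (0, z))) = u}) (st.isPathConnected m0).isConnected.isPreconnected
      ⟨0, m0, _, _, Bih.refl X, fun _ _ => rfl, τ0⟩ ?_ ?_ ⟨z, ⟨hz, rfl⟩, rfl⟩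
    · rintro _ - ⟨ψ, ψ', b₁, h1, rfl⟩
      filter_upwards [mem_nhdsWithin_of_mem_nhds (t.loc_tr f hcx hX h d (b₁.mf hy))] with u ⟨χ, χ', b₂, h2, h3⟩
      exact ⟨_, _, b₁.trans b₂, fun x hx => (h2 _ (b₁.mf hx)).trans (h1 x hx), h3⟩
    · rintro _ ⟨x, hx, rfl⟩ hfr
      obtain ⟨u, ⟨ψ, ψ', b₁, h1, h1'⟩, χ, χ', b₂, h2, h3⟩ :=
        (hfr.and_eventually (mem_nhdsWithin_of_mem_nhds (t.loc_tr f hcx hX h d hx.1))).exists
      have h4 : ψ (g (0, z)) = χ x := inj _ (b₁.mf hy) _ (b₂.mf hx.1) (h1'.trans h3.symm)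
        (by rw [h1 _ hy, h2 _ hx.1, hx.2, d.idem sp_b0 hz])
      refine ⟨_, _, b₁.trans b₂.symm, fun x' hx' => ?_, by rw [h4, b₂.gf _ hx.1]⟩
      rw [← h2 _ (b₂.mg (b₁.mf hx')), b₂.fg _ (b₁.mf hx'), h1 _ hx']
  obtain ⟨z₀, hz₀⟩ := hX.conn.nonempty
  have key : ∀ z ∈ X, ∀ z' ∈ X, ∃ x ∈ X, τ x = τ z ∧ g (0, x) = g (0, z') := fun z hz z' hz' => by
    obtain ⟨ψ, ψ', b₁, h1, h2⟩ := reach z hz
    have hy' := d.maps _ sp_b0 z' hz'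
    exact ⟨_, b₁.mf hy', (t.aut f h d hi b₁ hz hz').trans h2, (h1 _ hy').trans (d.idem sp_b0 hz')⟩
  have e : (fun z => (τ z, g (0, z))) '' X =
      (τ '' {x | x ∈ X ∧ g (0, x) = g (0, z₀)}) ×ˢ ((fun z => g (0, z)) '' X) := by
    refine Subset.antisymm ?_ ?_
    · rintro _ ⟨z, hz, rfl⟩
      obtain ⟨x, hx, h1, h2⟩ := key z hz z₀ hz₀
      exact ⟨⟨x, ⟨hx, h2⟩, h1⟩, z, hz, rfl⟩
    · rintro ⟨_, _⟩ ⟨⟨z, hz, rfl⟩, z', hz', rfl⟩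
      obtain ⟨x, hx, h1, h2⟩ := key z hz.1 z' hz'
      exact ⟨x, hx, Prod.ext h1 h2⟩
  rw [e] at b hop
  refine ⟨s, _, k, isOpen_iff_mem_nhds.2 fun u hu => ?_, t.bdd _ (d.maps _ sp_b0 z₀ hz₀), mY, b⟩
  have h1 : Tendsto (fun u' => (u', g (0, z₀))) (𝓝 u) (𝓝[univ ×ˢ ((fun z => g (0, z)) '' X)] (u, g (0, z₀))) :=
    tendsto_nhdsWithin_iff.2 ⟨(Continuous.prodMk_left _).tendsto u,
      Eventually.of_forall fun _ => ⟨trivial, z₀, hz₀, rfl⟩⟩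
  exact (h1.eventually (hop _ ⟨hu, z₀, hz₀, rfl⟩)).mono fun u' hu' => hu'.1

end Crest.Agent.R264
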