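import Crest.Agent.R264.Split.Four

set_option autoImplicit false
set_option linter.unusedSectionVars false
open Set Filter Topology Metric Complex

namespace Crest.Agent.R264

variable {E F G : Type}
  [NormedAddCommGroup E] [NormedSpace ℂ E] [NormedSpace ℝ E] [IsScalarTower ℝ ℂ E] [FiniteDimensional ℂ E]
  [NormedAddCommGroup F] [NormedSpace ℂ F] [NormedSpace ℝ F] [IsScalarTower ℝ ℂ F] [FiniteDimensional ℂ F]
  [NormedAddCommGroup G] [NormedSpace ℂ G] [NormedSpace ℝ G] [IsScalarTower ℝ ℂ G] [FiniteDimensional ℂ G]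

open scoped Real

/-- linearisation at a fixed point -/
theorem Circ.lin {n : ℕ} {X : Set E} (hX : Mfd n X) {φ : ℝ → E → E} (h : Circ X φ) {x₀ : E} (hx₀ : x₀ ∈ X)
    (hfix : ∀ θ, φ θ x₀ = x₀) (P : E →L[ℂ] E) (hP : ∀ v ∈ Tan X x₀, P v ∈ Tan X x₀ ∧ P (P v) = P v ∧
      ∀ θ : ℝ, Dv X (φ θ) x₀ v = v + (exp (θ * I) - 1) • P v) :
    ∃ (Λ : E → Fin n → ℂ) (Q : (Fin n → ℂ) →L[ℂ] (Fin n → ℂ)) (k : (Fin n → ℂ) → E) (O : Set E) (O' : Set (Fin n → ℂ)),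
      IsOpen O ∧ IsOpen O' ∧ x₀ ∈ O ∧ Bih (X ∩ O) O' Λ k ∧ (∀ w, Q (Q w) = Q w) ∧ Q (Λ x₀) = 0 ∧
      ∀ t : ℝ, ∀ z ∈ X, Λ (φ t z) = Λ z + (exp (t * I) - 1) • Q (Λ z) := by
  obtain ⟨c, Ψ, O₁, W, hc, hW⟩ := hX x₀ hx₀
  obtain ⟨h1, h2⟩ := hc.hW x₀ ⟨hx₀, hW⟩
  obtain ⟨h3, h4⟩ := hc.tan h1
  rw [h2] at h3 h4
  set p := fderiv ℂ Ψ x₀
  set e := fderiv ℂ c (Ψ x₀)
  have he : ∀ u, e u ∈ Tan X x₀ := fun u => h3 ▸ ⟨u, rfl⟩
  have hep : ∀ v ∈ Tan X x₀, e (p v) = v := fun v hv => by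
    obtain ⟨u, rfl⟩ := h3 ▸ hv
    exact congrArg e (h4 u)
  let Q : (Fin n → ℂ) →L[ℂ] (Fin n → ℂ) := p.comp (P.comp e)
  have hQ : ∀ u, Q u = p (P (e u)) := fun u => rfl
  have QQ : ∀ u, Q (Q u) = Q u := fun u => by rw [hQ, hQ, hep _ (hP _ (he u)).1, (hP _ (he u)).2.1]
  let A := ((1 : (Fin n → ℂ) →L[ℂ] (Fin n → ℂ)) - Q).comp p
  let B := Q.comp p
  have hA : ∀ v, A v = p v - Q (p v) := fun v => rfl
  have hB : ∀ v, B v = Q (p v) := fun v => rfl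
  have a0 := (h.four_an hX 0 (analyticOn_id (𝕜 := ℂ) (s := X))).1
  have a1 := (h.four_an hX 1 (analyticOn_id (𝕜 := ℂ) (s := X))).1
  have b0 : AnalyticOn ℂ (fun z => A (four φ 0 (fun z => z) z)) X := A.comp_analyticOn a0
  have b1 : AnalyticOn ℂ (fun z => B (four φ 1 (fun z => z) z)) X := B.comp_analyticOn a1
  let Λ : E → Fin n → ℂ := fun z => A (four φ 0 (fun z => z) z) + B (four φ 1 (fun z => z) z)
  have aΛ : AnalyticOn ℂ Λ X := b0.add b1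
  have QΛ : ∀ z, Q (Λ z) = B (four φ 1 (fun z => z) z) := fun z => by
    simp only [Λ, hA, hB, map_add, map_sub, QQ, sub_self, zero_add]
  have hM : Mfd n (univ : Set (Fin n → ℂ)) := by simpa using Mfd.of_isOpen (E := Fin n → ℂ) isOpen_univ
  obtain ⟨O, O', k, oO, oO', xO, -, b⟩ := loc_inv hX hM hx₀ univ_mem (aΛ.mono inter_subset_left) (mapsTo_univ _ _)
    (fun v hv h0 => by
      obtain ⟨p1, p2, p3⟩ := hP v hv
      have v1 := (Tan X x₀).sub_mem hv p1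
      have e0 : ∀ θ : ℝ, Dv X (φ θ) x₀ (v - P v) = exp (((0 : ℤ) : ℂ) * θ * I) • (v - P v) := fun θ => by
        rw [(hP _ v1).2.2, map_sub, p2]; simp
      have e1 : ∀ θ : ℝ, Dv X (φ θ) x₀ (P v) = exp (((1 : ℤ) : ℂ) * θ * I) • P v := fun θ => by
        rw [(hP _ p1).2.2, p2, sub_smul]; simp
      have d0 : Dv X (four φ 0 fun z => z) x₀ v = v - P v := by
        conv_lhs => rw [← sub_add_cancel v (P v), map_add, h.four_Dv hX 0 0 hx₀ v1 e0, h.four_Dv hX 0 1 hx₀ p1 e1]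
        simp
      have d1 : Dv X (four φ 1 fun z => z) x₀ v = P v := by
        conv_lhs => rw [← sub_add_cancel v (P v), map_add, h.four_Dv hX 1 0 hx₀ v1 e0, h.four_Dv hX 1 1 hx₀ p1 e1]
        simp
      have h5 : p (P v) = Q (p v) := by rw [hQ, hep v hv]
      rw [Dv_add (b0.differentiableOn _ hx₀) (b1.differentiableOn _ hx₀) hv, Dv_clm A (a0.differentiableOn _ hx₀) hv,
        Dv_clm B (a1.differentiableOn _ hx₀) hv, d0, d1, hA, hB, map_sub, map_sub, h5, QQ, sub_self, sub_zero,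
        sub_add_cancel] at h0
      rw [← hep v hv, h0, map_zero])
  refine ⟨Λ, Q, k, O, O', oO, oO', xO, by simpa using b, QQ, ?_, fun t z hz => ?_⟩
  · rw [QΛ, Circ.four_fix 1 _ hfix]; simp
  · rw [QΛ]
    simp only [Λ, h.four_wt _ _ t hz, map_smul, sub_smul]
    simp

/-- holomorphic action of the multiplicative semigroup of the unit disc -/
structure Disc (X : Set E) (φ : ℝ → E → E) (g : ℂ × E → E) : Prop where
  an : AnalyticOn ℂ g (ball 0 1 ×ˢ X)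
  maps : ∀ ζ ∈ ball (0 : ℂ) 1, ∀ z ∈ X, g (ζ, z) ∈ X
  mul : ∀ ζ ∈ ball (0 : ℂ) 1, ∀ ζ' ∈ ball (0 : ℂ) 1, ∀ z ∈ X, g (ζ, g (ζ', z)) = g (ζ * ζ', z)
  rot : ∀ θ : ℝ, ∀ ζ ∈ ball (0 : ℂ) 1, ∀ z ∈ X, g (exp (θ * I) * ζ, z) = φ θ (g (ζ, z))
  rot' : ∀ θ : ℝ, ∀ ζ ∈ ball (0 : ℂ) 1, ∀ z ∈ X, g (ζ, φ θ z) = g (exp (θ * I) * ζ, z)
  lim : TendstoLocallyUniformlyOn (fun (t : ℝ) z => g (t, z)) (fun z => z) (𝓝[<] 1) X

theorem sp_ball_mul {ζ ζ' : ℂ} (h : ‖ζ‖ ≤ 1) (h' : ζ' ∈ ball (0 : ℂ) 1) : ζ * ζ' ∈ ball (0 : ℂ) 1 := by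
  rw [mem_ball_zero_iff] at h' ⊢
  rw [norm_mul]
  exact mul_lt_one_of_nonneg_of_lt_one_right h (norm_nonneg _) h'

theorem sp_ev_ball : ∀ᶠ t : ℝ in 𝓝[<] 1, (t : ℂ) ∈ ball (0 : ℂ) 1 := by
  filter_upwards [Ioo_mem_nhdsLT (zero_lt_one' ℝ)] with t ht
  rw [mem_ball_zero_iff, norm_real, Real.norm_of_nonneg ht.1.le]
  exact ht.2

/-- the Cauchy integral along the orbits -/
noncomputable def cauK (φ : ℝ → E → E) (f : E → F) (p : ℂ × E) : F :=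
  (2 * π : ℂ)⁻¹ • ∫ θ in (0 : ℝ)..2 * π, (exp (θ * I) / (exp (θ * I) - p.1)) • f (φ θ p.2)

theorem sp_exp_sub {ζ : ℂ} (θ : ℝ) : 1 - ‖ζ‖ ≤ ‖exp (θ * I) - ζ‖ := by
  have := norm_sub_norm_le (exp (θ * I)) ζ
  rwa [norm_exp_ofReal_mul_I] at this

theorem Circ.cauK_an {n : ℕ} {X : Set E} (hX : Mfd n X) {φ : ℝ → E → E} (h : Circ X φ) {f : E → F}
    (hf : AnalyticOn ℂ f X) : AnalyticOn ℂ (cauK φ f) (ball 0 1 ×ˢ X) := by
  have hne : ∀ (θ : ℝ), ∀ ζ ∈ ball (0 : ℂ) 1, exp (θ * I) - ζ ≠ 0 := fun θ ζ hζ =>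
    norm_pos_iff.1 (lt_of_lt_of_le (sub_pos.2 (mem_ball_zero_iff.1 hζ)) (sp_exp_sub θ))
  refine analyticOn_const.smul (an_integral (k := fun θ (p : ℂ × E) => (exp (θ * I) / (exp (θ * I) - p.1)) • f (φ θ p.2))
    ((Mfd.of_isOpen isOpen_ball).prod hX) (fun θ _ => ?_) ?_).1
  · exact (analyticOn_const.div (analyticOn_const.sub analyticOn_fst) fun p hp => hne θ _ hp.1).smul
      ((hf.comp (h.an θ) (h.maps θ)).comp analyticOn_snd fun p hp => hp.2)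
  · refine ContinuousOn.smul (ContinuousOn.div (by fun_prop) (by fun_prop) fun p hp => hne _ _ hp.2.1) ?_
    exact hf.continuousOn.comp (h.cont.comp (f := fun p : ℝ × ℂ × E => (p.1, p.2.2)) (by fun_prop)
      fun p hp => ⟨trivial, hp.2.2⟩) fun p hp => h.maps _ hp.2.2

theorem Circ.cauK_le {X : Set E} {φ : ℝ → E → E} (h : Circ X φ) {f : E → F} (hf : ∀ z ∈ X, ‖f z‖ ≤ 1) {p : ℂ × E}
    (hp : p ∈ ball (0 : ℂ) 1 ×ˢ X) : ‖cauK φ f p‖ ≤ (1 - ‖p.1‖)⁻¹ := by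
  have h0 := sub_pos.2 (mem_ball_zero_iff.1 hp.1)
  have h1 := intervalIntegral.norm_integral_le_of_norm_le_const (a := 0) (b := 2 * π) (C := (1 - ‖p.1‖)⁻¹)
    (f := fun θ : ℝ => (exp (θ * I) / (exp (θ * I) - p.1)) • f (φ θ p.2)) fun θ _ => by
      rw [norm_smul, norm_div, norm_exp_ofReal_mul_I, one_div]
      exact (mul_le_of_le_one_right (by positivity) (hf _ (h.maps θ hp.2))).trans (inv_anti₀ h0 (sp_exp_sub θ))
  rw [cauK, norm_smul, norm_inv, norm_mul, norm_real, Real.norm_of_nonneg Real.pi_pos.le, Complex.norm_ofNat,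
    inv_mul_le_iff₀ Real.two_pi_pos]
  rwa [sub_zero, abs_of_pos Real.two_pi_pos, mul_comm _ (2 * π)] at h1

theorem Circ.disc {n : ℕ} {X : Set E} (hX : CM n X) {φ : ℝ → E → E} (h : Circ X φ) {x₀ : E} (hx₀ : x₀ ∈ X)
    (hfix : ∀ θ, φ θ x₀ = x₀) (P : E →L[ℂ] E) (hP : ∀ v ∈ Tan X x₀, P v ∈ Tan X x₀ ∧ P (P v) = P v ∧
      ∀ θ : ℝ, Dv X (φ θ) x₀ v = v + (exp (θ * I) - 1) • P v) : ∃ g, Disc X φ g := by
  obtain ⟨Λ, Q, k, O, O', oO, oO', xO, b, QQ, Q0, hΛ⟩ := h.lin hX.mfd hx₀ hfix P hP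
  let R : ℂ → (Fin n → ℂ) → Fin n → ℂ := fun ζ w => w + (ζ - 1) • Q w
  have RR : ∀ ζ ζ' w, R ζ (R ζ' w) = R (ζ * ζ') w := fun ζ ζ' w => by
    simp only [R, map_add, map_smul, QQ]
    module
  replace hΛ : ∀ t : ℝ, ∀ z ∈ X, Λ (φ t z) = R (exp (t * I)) (Λ z) := hΛ
  have cΛ : Tendsto Λ (𝓝[X] x₀) (𝓝 (Λ x₀)) := by
    rw [← nhdsWithin_inter_of_mem' (mem_nhdsWithin_of_mem_nhds (oO.mem_nhds xO))]
    exact b.af.continuousOn x₀ ⟨hx₀, xO⟩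
  have e1 : ∀ᶠ z in 𝓝[X] x₀, ∀ ζ ∈ closedBall (0 : ℂ) 1, R ζ (Λ z) ∈ O' := by
    refine cΛ.eventually (p := fun w => ∀ ζ ∈ closedBall (0 : ℂ) 1, R ζ w ∈ O')
      ((isCompact_closedBall 0 1).eventually_forall_of_forall_eventually fun ζ _ => ?_)
    have : Continuous fun p : (Fin n → ℂ) × ℂ => R p.2 p.1 := by simp only [R]; fun_prop
    refine this.continuousAt.eventually (oO'.mem_nhds ?_)
    simp only [R, Q0, smul_zero, add_zero]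
    exact b.mf ⟨hx₀, xO⟩
  have e2 : ∀ᶠ z in 𝓝[X] x₀, ∀ θ ∈ uIcc 0 (2 * π), φ θ z ∈ O := by
    have : ∀ᶠ z in 𝓝 x₀, ∀ θ ∈ uIcc 0 (2 * π), z ∈ X → φ θ z ∈ O := by
      refine isCompact_uIcc.eventually_forall_of_forall_eventually fun θ _ => ?_
      have h1 := (h.cont (θ, x₀) ⟨trivial, hx₀⟩).eventually (oO.mem_nhds (by simpa only [hfix] using xO))
      rw [eventually_nhdsWithin_iff] at h1
      exact ((continuous_swap.tendsto (x₀, θ)).eventually h1).mono fun p hp hz => hp ⟨trivial, hz⟩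
    filter_upwards [mem_nhdsWithin_of_mem_nhds this, self_mem_nhdsWithin] with z hz hz' θ hθ using hz θ hθ hz'
  have ak : ∀ z, (∀ ζ ∈ closedBall (0 : ℂ) 1, R ζ (Λ z) ∈ O') →
      AnalyticOn ℂ (fun ζ => k (R ζ (Λ z))) (closedBall 0 1) := fun z hz =>
    b.ag.comp (g := fun ζ => R ζ (Λ z))
      (analyticOn_const.add ((analyticOn_id.sub analyticOn_const).smul analyticOn_const)) hz
  have cau : ∀ {H : Type} [NormedAddCommGroup H] [NormedSpace ℂ H] [NormedSpace ℝ H] [IsScalarTower ℝ ℂ H]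
      [FiniteDimensional ℂ H] (z : E), z ∈ X → (∀ ζ ∈ closedBall (0 : ℂ) 1, R ζ (Λ z) ∈ O') →
      (∀ θ ∈ uIcc 0 (2 * π), φ θ z ∈ O) → ∀ f : E → H, AnalyticOn ℂ f X → ∀ ζ ∈ ball (0 : ℂ) 1,
      cauK φ f (ζ, z) = f (k (R ζ (Λ z))) := by
    intro H _ _ _ _ _ z hz h1 h2 f hf ζ hζ
    have h3 := sp_cauchy ((hf.comp (ak z h1) fun ζ hζ => (b.mg (h1 ζ hζ)).1).differentiableOn) hζ
    rw [cauK, intervalIntegral.integral_congr (g := fun θ : ℝ => (exp (θ * I) / (exp (θ * I) - ζ)) •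
      (f ∘ fun ζ => k (R ζ (Λ z))) (exp (θ * I))) fun θ hθ => by
        simp only [Function.comp, ← hΛ θ z hz, b.gf _ ⟨h.maps θ hz, h2 θ hθ⟩], h3,
      inv_smul_smul₀ (by simp [Real.pi_ne_zero])]
    rfl
  let g := cauK φ fun z : E => z
  have ag : AnalyticOn ℂ g (ball 0 1 ×ˢ X) := h.cauK_an hX.mfd analyticOn_id
  have e3 : ∀ᶠ z in 𝓝[X] x₀, ∀ ζ ∈ ball (0 : ℂ) 1, g (ζ, z) = k (R ζ (Λ z)) ∧ R ζ (Λ z) ∈ O' := by
    filter_upwards [e1, e2, self_mem_nhdsWithin] with z h1 h2 hz ζ hζ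
    exact ⟨cau z hz h1 h2 _ analyticOn_id ζ hζ, h1 ζ (ball_subset_closedBall hζ)⟩
  have b0 : (0 : ℂ) ∈ ball (0 : ℂ) 1 := mem_ball_self one_pos
  have mg : MapsTo g (ball 0 1 ×ˢ X) X := by
    refine sp_ext hX ((Mfd.of_isOpen isOpen_ball).prod hX.mfd)
      ((convex_ball 0 1).isPreconnected.prod hX.conn.isPreconnected) ag (T := fun f => cauK φ f)
      (fun f hf _ => h.cauK_an hX.mfd hf) (fun p hp => ?_) (p₀ := (0, x₀)) ⟨b0, hx₀⟩ ?_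
    · have h0 := sub_pos.2 (mem_ball_zero_iff.1 hp.1)
      refine ⟨{q | ‖q.1‖ < (1 + ‖p.1‖) / 2}, (isOpen_lt (by fun_prop) continuous_const).mem_nhds (by
        change ‖p.1‖ < _; linarith), ((1 - ‖p.1‖) / 2)⁻¹, fun f _ hf q hq => (h.cauK_le hf hq.1).trans
          (inv_anti₀ (half_pos h0) ?_)⟩
      have : ‖q.1‖ < (1 + ‖p.1‖) / 2 := hq.2
      linarith
    · have h1 : Tendsto Prod.snd (𝓝[ball (0 : ℂ) 1 ×ˢ X] (0, x₀)) (𝓝[X] x₀) := by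
        rw [nhdsWithin_prod_eq]; exact tendsto_snd
      filter_upwards [h1.eventually e1, h1.eventually e2, h1.eventually e3, self_mem_nhdsWithin] with p p1 p2 p3 hp
      have h2 : g p = k (R p.1 (Λ p.2)) := (p3 _ hp.1).1
      exact ⟨h2 ▸ (b.mg (p3 _ hp.1).2).1, fun f hf _ => by rw [h2]; exact (cau _ hp.2 p1 p2 f hf _ hp.1).symm⟩
  have mg' : ∀ ζ ∈ ball (0 : ℂ) 1, MapsTo (fun z => g (ζ, z)) X X := fun ζ hζ z hz => mg (mk_mem_prod hζ hz)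
  have ev : ∀ {ψ : E → E}, AnalyticOn ℂ ψ X → MapsTo ψ X X → ψ x₀ = x₀ → Tendsto ψ (𝓝[X] x₀) (𝓝[X] x₀) :=
    fun ha hm h0 => by
      have := (ha.continuousOn x₀ hx₀).tendsto_nhdsWithin hm
      rwa [h0] at this
  have g0 : ∀ ζ ∈ ball (0 : ℂ) 1, g (ζ, x₀) = x₀ := fun ζ hζ => by
    rw [(e3.self_of_nhdsWithin hx₀ ζ hζ).1]
    simp only [R, Q0, smul_zero, add_zero]
    exact b.gf _ ⟨hx₀, xO⟩
  have hb : ∀ θ : ℝ, ∀ ζ ∈ ball (0 : ℂ) 1, exp (θ * I) * ζ ∈ ball (0 : ℂ) 1 := fun θ ζ hζ =>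
    sp_ball_mul (norm_exp_ofReal_mul_I θ).le hζ
  have idt := fun {f f' : E → E} (hf : AnalyticOn ℂ f X) (hf' : AnalyticOn ℂ f' X) =>
    ident hX.mfd hX.conn.isPreconnected hf hf' hx₀
  refine ⟨g, ag, fun ζ hζ z hz => mg' ζ hζ hz, fun ζ hζ ζ' hζ' => ?_, fun θ ζ hζ => ?_, fun θ ζ hζ => ?_, ?_⟩
  · have h1 := sp_ball_mul (mem_ball_zero_iff.1 hζ).le hζ'
    refine idt ((sp_slice ag hζ).comp (sp_slice ag hζ') (mg' _ hζ')) (sp_slice ag h1) ?_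
    filter_upwards [e3, (ev (sp_slice ag hζ') (mg' _ hζ') (g0 _ hζ')).eventually e3] with z h2 h3
    rw [(h3 ζ hζ).1, (h2 ζ' hζ').1, b.fg _ (h2 ζ' hζ').2, RR, (h2 _ h1).1]
  · have a1 := (h.an θ).comp (sp_slice ag hζ) (mg' _ hζ)
    have m1 := (h.maps θ).comp (mg' _ hζ)
    refine idt (sp_slice ag (hb θ ζ hζ)) a1 ?_
    filter_upwards [e3, (ev a1 m1 (by rw [Function.comp_apply, g0 _ hζ, hfix])).eventually
      (mem_nhdsWithin_of_mem_nhds (oO.mem_nhds xO)), self_mem_nhdsWithin] with z h2 h3 hz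
    rw [← b.gf (φ θ (g (ζ, z))) ⟨m1 hz, h3⟩, hΛ _ (g (ζ, z)) (mg' _ hζ hz), (h2 _ (hb θ ζ hζ)).1, (h2 ζ hζ).1,
      b.fg _ (h2 ζ hζ).2, RR]
  · refine idt ((sp_slice ag hζ).comp (h.an θ) (h.maps θ)) (sp_slice ag (hb θ ζ hζ)) ?_
    filter_upwards [e3, (ev (h.an θ) (h.maps θ) (hfix θ)).eventually e3, self_mem_nhdsWithin] with z h2 h3 hz
    rw [(h3 ζ hζ).1, hΛ _ _ hz, RR, (h2 _ (hb θ ζ hζ)).1, mul_comm]
  · obtain ⟨C, hC⟩ := hX.bdd.exists_norm_le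
    have hl : ∀ l ≤ 𝓝[<] (1 : ℝ), ∀ x ∈ X, ∃ O ∈ 𝓝 x, ∃ C : ℝ, ∀ᶠ t : ℝ in l,
        AnalyticOn ℂ (fun z => g (t, z)) (X ∩ O) ∧ ∀ y ∈ X ∩ O, ‖g (t, y)‖ ≤ C := fun l hl x _ =>
      ⟨univ, univ_mem, C, (sp_ev_ball.filter_mono hl).mono fun t ht =>
        ⟨(sp_slice ag ht).mono inter_subset_left, fun y hy => hC _ (mg' _ ht hy.1)⟩⟩
    refine locUnif_of_pointwise hX.mfd (hl _ le_rfl) fun x hx => (tendsto_iff_ultrafilter _ _ _).2 fun U hU => ?_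
    obtain ⟨K, aK, hK⟩ := montel hX.mfd U (hl _ hU)
    have h1 : K x = x := by
      refine idt aK analyticOn_id ?_ x hx
      filter_upwards [e1, e3, self_mem_nhdsWithin, mem_nhdsWithin_of_mem_nhds (oO.mem_nhds xO)] with z h1 h3 hz hz'
      refine tendsto_nhds_unique (hK.tendsto_at hz) (Tendsto.mono_left ?_ hU)
      have h4 := (ak z h1).continuousOn 1 (by simp)
      have h5 : Tendsto (fun t : ℝ => (t : ℂ)) (𝓝[<] 1) (𝓝[closedBall 0 1] 1) :=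
        tendsto_nhdsWithin_iff.2 ⟨(continuous_ofReal.tendsto 1).mono_left nhdsWithin_le_nhds,
          sp_ev_ball.mono fun t ht => ball_subset_closedBall ht⟩
      have h6 := h4.tendsto.comp h5
      simp only [R, sub_self, zero_smul, add_zero, b.gf _ ⟨hz, hz'⟩] at h6
      exact h6.congr' (sp_ev_ball.mono fun t ht => (h3 _ ht).1.symm)
    simpa only [h1] using hK.tendsto_at hx

end Crest.Agent.R264
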