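import Crest.Agent.R264.Split.Gen
import Crest.Agent.R264.Lie.Cartan

set_option autoImplicit false
set_option linter.unusedSectionVars false
open Set Filter Topology Metric Complex

namespace Crest.Agent.R264

variable {E F G : Type}
  [NormedAddCommGroup E] [NormedSpace ℂ E] [NormedSpace ℝ E] [IsScalarTower ℝ ℂ E] [FiniteDimensional ℂ E]
  [NormedAddCommGroup F] [NormedSpace ℂ F] [NormedSpace ℝ F] [IsScalarTower ℝ ℂ F] [FiniteDimensional ℂ F]
  [NormedAddCommGroup G] [NormedSpace ℂ G] [NormedSpace ℝ G] [IsScalarTower ℝ ℂ G] [FiniteDimensional ℂ G]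

open scoped Real

theorem sp_inst (F : Type) [NormedAddCommGroup F] [NormedSpace ℂ F] [i : NormedSpace ℝ F] [IsScalarTower ℝ ℂ F] :
    i = NormedSpace.complexToReal := by
  have : i.toModule = (NormedSpace.complexToReal : NormedSpace ℝ F).toModule :=
    Module.ext' _ _ fun r x => by
      change _ = (r : ℂ) • x
      rw [← Complex.coe_algebraMap, algebraMap_smul]
  cases i
  congr

theorem sp_cauchy {u : ℂ → F} (hu : DifferentiableOn ℂ u (closedBall 0 1)) {w : ℂ} (hw : w ∈ ball (0 : ℂ) 1) :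
    ∫ θ in (0 : ℝ)..2 * π, (exp (θ * I) / (exp (θ * I) - w)) • u (exp (θ * I)) = (2 * π : ℂ) • u w := by
  have h := hu.circleIntegral_sub_inv_smul hw
  obtain rfl := sp_inst F
  have h2 : (∮ z in C(0, 1), (z - w)⁻¹ • u z) =
      I • ∫ θ in (0 : ℝ)..2 * π, (exp (θ * I) / (exp (θ * I) - w)) • u (exp (θ * I)) := by
    rw [circleIntegral, ← intervalIntegral.integral_smul]
    congr 1
    ext θ
    simp only [deriv_circleMap, circleMap, ofReal_one, one_mul, zero_add, smul_smul]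
    congr 1
    ring
  rw [h2, mul_comm _ I, mul_smul] at h
  exact smul_right_injective F I_ne_zero h

/-- a holomorphic circle action -/
structure Circ (X : Set E) (φ : ℝ → E → E) : Prop extends IsGrp X φ where
  cont : ContinuousOn (fun p : ℝ × E => φ p.1 p.2) (univ ×ˢ X)
  per : ∀ x ∈ X, φ (2 * π) x = x

/-- Fourier coefficients along the orbits -/
noncomputable def four (φ : ℝ → E → E) (k : ℤ) (f : E → F) (z : E) : F :=
  ∫ θ in (0 : ℝ)..2 * π, ((2 * π : ℂ)⁻¹ * exp (-(k * θ * I))) • f (φ θ z)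

theorem Circ.four_an {n : ℕ} {X : Set E} (hX : Mfd n X) {φ : ℝ → E → E} (h : Circ X φ) (k : ℤ) {f : E → F}
    (hf : AnalyticOn ℂ f X) : AnalyticOn ℂ (four φ k f) X ∧ ∀ x ∈ X, ∀ v ∈ Tan X x,
      Dv X (four φ k f) x v =
        ∫ θ in (0 : ℝ)..2 * π, ((2 * π : ℂ)⁻¹ * exp (-(k * θ * I))) • Dv X (fun z => f (φ θ z)) x v := by
  have h1 : ∀ θ, AnalyticOn ℂ (fun z => f (φ θ z)) X := fun θ => hf.comp (h.an θ) (h.maps θ)
  obtain ⟨h2, h3⟩ := an_integral (k := fun θ z => ((2 * π : ℂ)⁻¹ * exp (-(k * θ * I))) • f (φ θ z)) (a := 0)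
    (b := 2 * π) hX (fun θ _ => analyticOn_const.smul (h1 θ))
    (ContinuousOn.smul (by fun_prop) ((hf.continuousOn.comp h.cont fun p hp => h.maps _ hp.2).mono
      (prod_mono (subset_univ _) Subset.rfl)))
  refine ⟨h2, fun x hx v hv => ((h3 x hx v hv).2).trans ?_⟩
  congr 1
  ext θ
  exact Dv_const_smul _ ((h1 θ).differentiableOn x hx) hv

theorem Circ.four_wt {X : Set E} {φ : ℝ → E → E} (h : Circ X φ) (k : ℤ) (f : E → F) (t : ℝ) {z : E} (hz : z ∈ X) :
    four φ k f (φ t z) = exp (k * t * I) • four φ k f z := by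
  have hp : Function.Periodic (fun θ : ℝ => ((2 * π : ℂ)⁻¹ * exp (-(k * θ * I))) • f (φ θ z)) (2 * π) := by
    intro θ
    simp only
    rw [h.add θ _ z hz, h.per z hz]
    congr 2
    rw [exp_eq_exp_iff_exists_int]
    exact ⟨-k, by push_cast; ring⟩
  have h1 := hp.intervalIntegral_add_eq t 0
  rw [zero_add] at h1
  rw [four, four, ← h1, ← intervalIntegral.integral_smul]
  have h2 := intervalIntegral.integral_comp_add_right
    (fun θ : ℝ => exp (k * t * I) • ((2 * π : ℂ)⁻¹ * exp (-(k * θ * I))) • f (φ θ z)) (a := 0) (b := 2 * π) t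
  rw [zero_add, add_comm (2 * π)] at h2
  rw [← h2]
  congr 1
  ext θ
  rw [h.add θ t z hz, smul_smul, mul_left_comm, ← exp_add]
  congr 3
  push_cast
  ring

theorem sp_int_exp (m : ℤ) (w : F) :
    ∫ θ in (0 : ℝ)..2 * π, ((2 * π : ℂ)⁻¹ * exp (m * θ * I)) • w = if m = 0 then w else 0 := by
  rw [intervalIntegral.integral_smul_const, intervalIntegral.integral_const_mul]
  have p0 : (2 * π : ℂ) ≠ 0 := by simp [Real.pi_ne_zero]
  split_ifs with hm
  · simp only [hm, Int.cast_zero, zero_mul, exp_zero, intervalIntegral.integral_const, sub_zero, real_smul, mul_one]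
    push_cast
    rw [inv_mul_cancel₀ p0, one_smul]
  · have h1 : (m * I : ℂ) ≠ 0 := mul_ne_zero (Int.cast_ne_zero.2 hm) I_ne_zero
    have h2 := integral_exp_mul_complex (a := 0) (b := 2 * π) h1
    simp only [mul_right_comm _ I] at h2
    have h3 : exp (m * ((2 * π : ℝ) : ℂ) * I) = 1 := exp_eq_one_iff.2 ⟨m, by push_cast; ring⟩
    rw [h2, h3]
    simp

/-- derivative of a Fourier coefficient of the identity on an eigenvector -/
theorem Circ.four_Dv {n : ℕ} {X : Set E} (hX : Mfd n X) {φ : ℝ → E → E} (h : Circ X φ) (k j : ℤ) {x v : E}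
    (hx : x ∈ X) (hv : v ∈ Tan X x) (he : ∀ θ : ℝ, Dv X (φ θ) x v = exp (j * θ * I) • v) :
    Dv X (four φ k fun z => z) x v = if j = k then v else 0 := by
  rw [(h.four_an hX k analyticOn_id).2 x hx v hv, ← if_congr sub_eq_zero rfl rfl, ← sp_int_exp]
  congr 1
  ext θ
  rw [he, smul_smul, mul_assoc, ← exp_add]
  congr 3
  push_cast
  ring

theorem Circ.four_fix {φ : ℝ → E → E} (k : ℤ) (f : E → F) {x : E} (hx : ∀ θ, φ θ x = x) :
    four φ k f x = if k = 0 then f x else 0 := by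
  rw [← if_congr neg_eq_zero rfl rfl, ← sp_int_exp, four]
  congr 1
  ext θ
  rw [hx]
  congr 3
  push_cast
  ring

theorem Circ.four_le {X : Set E} {φ : ℝ → E → E} (h : Circ X φ) (k : ℤ) {f : E → F} {C : ℝ}
    (hf : ∀ z ∈ X, ‖f z‖ ≤ C) {z : E} (hz : z ∈ X) : ‖four φ k f z‖ ≤ C := by
  have h1 := intervalIntegral.norm_integral_le_of_norm_le_const (a := 0) (b := 2 * π) (C := (2 * π)⁻¹ * C)
    (f := fun θ : ℝ => ((2 * π : ℂ)⁻¹ * exp (-(k * θ * I))) • f (φ θ z)) fun θ _ => by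
      have h2 : exp (-(k * θ * I)) = exp (((-(k * θ) : ℝ) : ℂ) * I) := by push_cast; ring_nf
      rw [norm_smul, norm_mul, h2, norm_exp_ofReal_mul_I, mul_one, norm_inv, norm_mul, norm_real,
        Real.norm_of_nonneg Real.pi_pos.le, Complex.norm_ofNat]
      exact mul_le_mul_of_nonneg_left (hf _ (h.maps θ hz)) (by positivity)
  refine h1.trans (le_of_eq ?_)
  rw [sub_zero, abs_of_pos Real.two_pi_pos]
  field_simp

end Crest.Agent.R264
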