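import Crest.Agent.R264.Lie.Cartan

set_option autoImplicit false
set_option linter.unusedSectionVars false
open Set Filter Topology Metric Complex

namespace Crest.Agent.R264

variable {E F G : Type}
  [NormedAddCommGroup E] [NormedSpace ℂ E] [NormedSpace ℝ E] [IsScalarTower ℝ ℂ E] [FiniteDimensional ℂ E]
  [NormedAddCommGroup F] [NormedSpace ℂ F] [NormedSpace ℝ F] [IsScalarTower ℝ ℂ F] [FiniteDimensional ℂ F]
  [NormedAddCommGroup G] [NormedSpace ℂ G] [NormedSpace ℝ G] [IsScalarTower ℝ ℂ G] [FiniteDimensional ℂ G]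

variable {L : Type} [LieRing L] [LieAlgebra ℝ L] [FiniteDimensional ℝ L] {ι : L →ₗ[ℝ] (E → E)} {X : Set E}

/-- the weight `-1` fields attached to a circle generator -/
structure Fr (X : Set E) (ι : L →ₗ[ℝ] (E → E)) (Z : L) (x₀ : E) {r : ℕ} (𝔡 : (Fin r → ℂ) →ₗ[ℂ] (E → E))
    (c : L → Fin r → ℂ) : Prop where
  vf : ∀ v, VF X (𝔡 v)
  eig : ∀ v, ∀ y ∈ X, br X (ι Z) (𝔡 v) y = (-I) • 𝔡 v y
  mem : ∀ v, ∃ a b, 𝔡 v = ι a + I • ι b
  dec : ∀ a, ∃ (k : L) (W : E → E), ⁅Z, k⁆ = 0 ∧ VF X W ∧ (∀ y ∈ X, br X (ι Z) W y = I • W y) ∧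
    ι a = ι k + 𝔡 (c a) + W
  inj : Function.Injective fun v => 𝔡 v x₀
  zero : ι Z x₀ = 0

theorem sp_rs (t : ℝ) (v : E) : t • v = (t : ℂ) • v := by rw [← Complex.coe_algebraMap, algebraMap_smul]

/-- the values at a point as a complex subspace -/
def spV (ι : L →ₗ[ℝ] (E → E)) (x : E) (h : ∀ a, ∃ a', ι a' x = I • ι a x) : Submodule ℂ E where
  carrier := {v | ∃ a, ι a x = v}
  zero_mem' := ⟨0, by simp⟩
  add_mem' := by
    rintro _ _ ⟨a, rfl⟩ ⟨b, rfl⟩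
    exact ⟨a + b, by simp⟩
  smul_mem' := by
    rintro c _ ⟨a, rfl⟩
    obtain ⟨a', ha⟩ := h a
    refine ⟨c.re • a + c.im • a', ?_⟩
    rw [map_add, map_smul, map_smul, Pi.add_apply, Pi.smul_apply, Pi.smul_apply, ha, sp_rs, sp_rs, smul_smul,
      ← add_smul, re_add_im]

theorem spV_rank (x : E) (h : ∀ a, ∃ a', ι a' x = I • ι a x) :
    Module.finrank ℝ (LinearMap.range (evx ι x)) = 2 * Module.finrank ℂ (spV ι x h) := by
  have h1 : LinearMap.range (evx ι x) = (spV ι x h).restrictScalars ℝ := by ext v; rfl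
  rw [h1, ← finrank_real_complex, Module.finrank_mul_finrank ℝ ℂ (spV ι x h)]
  rfl

theorem CxVal.ex (hcx : CxVal X (range ι)) {x : E} (hx : x ∈ X) (a : L) : ∃ a', ι a' x = I • ι a x := by
  obtain ⟨_, ⟨a', rfl⟩, h⟩ := hcx x hx _ ⟨a, rfl⟩
  exact ⟨a', h⟩

theorem exists_fr (h : LieRep X ι) (hcx : CxVal X (range ι)) {x₀ : E} (hx₀ : x₀ ∈ X) {Z : L} (hZ : Car (evx ι x₀) Z)
    {r : ℕ} (hr : Module.finrank ℝ (LinearMap.range (evx ι x₀)) = 2 * r) :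
    ∃ (𝔡 : (Fin r → ℂ) →ₗ[ℂ] (E → E)) (c : L → Fin r → ℂ), Fr X ι Z x₀ 𝔡 c := by
  obtain ⟨z0, z1, z2⟩ := hZ
  replace z1 : ∀ k, ι k x₀ = 0 → ⁅Z, k⁆ = 0 := z1
  replace z2 : ∀ a, ι ⁅Z, a⁆ x₀ = -(I • ι a x₀) := z2
  have z3 : ∀ a, ι ⁅Z, ⁅Z, a⁆⁆ x₀ = -ι a x₀ := fun a => by rw [z2, z2, smul_neg, neg_neg, smul_smul]; simp
  have z4 : ∀ a : L, ⁅Z, a + ⁅Z, ⁅Z, a⁆⁆⁆ = 0 := fun a => z1 _ (by rw [map_add, Pi.add_apply, z3, add_neg_cancel])
  have z5 : ∀ a : L, ⁅Z, ⁅Z, ⁅Z, a⁆⁆⁆ = -⁅Z, a⁆ := fun a => by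
    have := z4 a
    rw [lie_add] at this
    exact eq_neg_of_add_eq_zero_right this
  have vf : ∀ a, VF X (ι a) := fun a => (h.gen a).vf
  let D : ℂ → L → E → E := fun s a => (2⁻¹ : ℂ) • (ι (-⁅Z, ⁅Z, a⁆⁆) + s • ι ⁅Z, a⁆)
  have Dv : ∀ s a, VF X (D s a) := fun s a => ((vf _).add ((vf _).smul s)).smul _
  have Db : ∀ s a, s * s = -1 → br X (ι Z) (D s a) = (-s) • D s a := fun s a hs => by
    simp only [D]
    rw [br_smul_right _ (vf _) ((vf _).add ((vf _).smul s)), br_add_right (vf _) (vf _) ((vf _).smul s),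
      br_smul_right _ (vf _) (vf _), ← h.lie, ← h.lie, lie_neg, z5, neg_neg, map_neg, smul_comm (-s), smul_add,
      smul_add, smul_add, smul_smul (-s) s, neg_mul, hs]
    simp [add_comm]
  have D0 : ∀ a, D I a x₀ = ι a x₀ := fun a => by
    simp only [D, map_neg, Pi.smul_apply, Pi.add_apply, Pi.neg_apply, z3]
    rw [z2, neg_neg, smul_neg, smul_smul I, I_mul_I]
    module
  have Dk : ∀ a a', ι a x₀ = ι a' x₀ → D I a = D I a' := fun a a' e => by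
    have : ⁅Z, a⁆ = ⁅Z, a'⁆ := by
      rw [← sub_eq_zero, ← lie_sub]
      exact z1 _ (by rw [map_sub, Pi.sub_apply, e, sub_self])
    simp only [D, this]
  have hV := hcx.ex hx₀
  rw [spV_rank x₀ hV] at hr
  let b := Module.finBasisOfFinrankEq ℂ (spV ι x₀ hV) (Nat.eq_of_mul_eq_mul_left two_pos hr)
  choose s hs using fun v : spV ι x₀ hV => v.2
  let d : spV ι x₀ hV →ₗ[ℂ] (E → E) :=
    { toFun := fun v => D I (s v)
      map_add' := fun v w => by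
        rw [Dk _ (s v + s w) (by rw [map_add, Pi.add_apply, hs, hs, hs]; rfl)]
        simp only [D, lie_add, neg_add, map_add]
        module
      map_smul' := fun t v => by
        rw [Dk _ (t.re • s v - t.im • ⁅Z, s v⁆) (by
          rw [map_sub, map_smul, map_smul, Pi.sub_apply, Pi.smul_apply, Pi.smul_apply, z2, hs, hs, sp_rs, sp_rs,
            smul_neg, sub_neg_eq_add, smul_smul, ← add_smul, re_add_im]; rfl)]
        ext y
        simp only [D, lie_sub, lie_smul, z5, map_neg, map_sub, map_smul, Pi.smul_apply, Pi.add_apply, Pi.sub_apply,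
          Pi.neg_apply, sp_rs, RingHom.id_apply]
        conv_rhs => rw [← re_add_im t]
        match_scalars
        · ring
        · linear_combination (-(t.im : ℂ) / 2) * I_mul_I }
  refine ⟨d.comp b.equivFun.symm.toLinearMap, fun a => b.equivFun ⟨ι a x₀, a, rfl⟩, fun v => Dv _ _,
    fun v y _ => congrFun (Db I _ I_mul_I) y, fun v => ?_, fun a => ?_, fun v w e => ?_, z0⟩
  · refine ⟨(2⁻¹ : ℝ) • -⁅Z, ⁅Z, s (b.equivFun.symm v)⁆⁆, (2⁻¹ : ℝ) • ⁅Z, s (b.equivFun.symm v)⁆, ?_⟩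
    ext y
    change D I _ y = _
    simp only [D, map_smul, Pi.smul_apply, Pi.add_apply, sp_rs]
    push_cast
    module
  · refine ⟨_, D (-I) a, z4 a, Dv _ _, fun y _ => by rw [Db (-I) a (by simp), neg_neg]; rfl, ?_⟩
    rw [LinearMap.comp_apply, LinearEquiv.coe_coe, LinearEquiv.symm_apply_apply]
    change _ = _ + D I _ + _
    rw [Dk _ a (hs _)]
    simp only [D, map_add, map_neg]
    module
  · change D I _ x₀ = D I _ x₀ at e
    rw [D0, D0, hs, hs] at e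
    exact b.equivFun.symm.injective (Subtype.ext e)

variable {Z : L} {x₀ : E} {r : ℕ} {𝔡 : (Fin r → ℂ) →ₗ[ℂ] (E → E)} {c : L → Fin r → ℂ}

theorem Fr.val (f : Fr X ι Z x₀ 𝔡 c) (hcx : CxVal X (range ι)) {z : E} (hz : z ∈ X) (v : Fin r → ℂ) :
    ∃ a, ι a z = 𝔡 v z := by
  obtain ⟨a, b, e⟩ := f.mem v
  obtain ⟨b', hb⟩ := hcx.ex hz b
  exact ⟨a + b', by rw [e, map_add, Pi.add_apply, hb]; rfl⟩

theorem Fr.span (f : Fr X ι Z x₀ 𝔡 c) (hcx : CxVal X (range ι)) {z : E} (hz : z ∈ X)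
    (hr : Module.finrank ℝ (LinearMap.range (evx ι z)) = 2 * r) (hi : Function.Injective fun v => 𝔡 v z) (a : L) :
    ∃ v, 𝔡 v z = ι a z := by
  rw [spV_rank z (hcx.ex hz)] at hr
  let e : (Fin r → ℂ) →ₗ[ℂ] E := (LinearMap.proj z).comp 𝔡
  have h1 : LinearMap.range e = spV ι z (hcx.ex hz) := by
    refine Submodule.eq_of_le_of_finrank_eq (by rintro _ ⟨v, rfl⟩; exact f.val hcx hz v) ?_
    rw [LinearMap.finrank_range_of_inj hi, Nat.eq_of_mul_eq_mul_left two_pos hr]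
    simp
  exact (h1.ge ⟨a, rfl⟩ : ι a z ∈ LinearMap.range e)

theorem Fr.inj_of (f : Fr X ι Z x₀ 𝔡 c) (hcx : CxVal X (range ι)) {z : E} (hz : z ∈ X)
    (hr : Module.finrank ℝ (LinearMap.range (evx ι z)) = 2 * r) (hs : ∀ a, ∃ v, 𝔡 v z = ι a z) :
    Function.Injective fun v => 𝔡 v z := by
  rw [spV_rank z (hcx.ex hz)] at hr
  let e : (Fin r → ℂ) →ₗ[ℂ] E := (LinearMap.proj z).comp 𝔡
  have h1 : LinearMap.range e = spV ι z (hcx.ex hz) :=
    le_antisymm (by rintro _ ⟨v, rfl⟩; exact f.val hcx hz v) (by rintro _ ⟨a, rfl⟩; exact hs a)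
  have h2 := e.finrank_range_add_finrank_ker
  rw [h1, Nat.eq_of_mul_eq_mul_left two_pos hr, Module.finrank_fin_fun, add_eq_left, Submodule.finrank_eq_zero] at h2
  exact LinearMap.ker_eq_bot.1 h2

end Crest.Agent.R264
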