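import Crest.Agent.R264.Base.Cd

set_option autoImplicit false
set_option linter.unusedSectionVars false
open Set Filter Topology Metric Complex

namespace Crest.Agent.R264

variable {E F G : Type}
  [NormedAddCommGroup E] [NormedSpace ℂ E] [NormedSpace ℝ E] [IsScalarTower ℝ ℂ E] [FiniteDimensional ℂ E]
  [NormedAddCommGroup F] [NormedSpace ℂ F] [NormedSpace ℝ F] [IsScalarTower ℝ ℂ F] [FiniteDimensional ℂ F]
  [NormedAddCommGroup G] [NormedSpace ℂ G] [NormedSpace ℝ G] [IsScalarTower ℝ ℂ G] [FiniteDimensional ℂ G]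

/-- analytic left inverse of a frame -/
theorem sp_coef {X : Set E} {x : E} (hx : x ∈ X) {r : ℕ} (𝔡 : (Fin r → ℂ) →ₗ[ℂ] (E → F))
    (ha : ∀ v, AnalyticWithinAt ℂ (𝔡 v) X x) (hi : Function.Injective fun v => 𝔡 v x) :
    ∃ Λ : E → F →L[ℂ] (Fin r → ℂ), AnalyticAt ℂ Λ x ∧ ∀ᶠ y in 𝓝[X] x, ∀ v, Λ y (𝔡 v y) = v := by
  classical
  choose e he he' using fun j : Fin r => (anW_iff hx).1 (ha (Pi.single j 1))
  let A : E → (Fin r → ℂ) →L[ℂ] F := fun y => ∑ j, (ContinuousLinearMap.proj j : (Fin r → ℂ) →L[ℂ] ℂ).smulRight (e j y)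
  have hA : AnalyticAt ℂ A x := Finset.analyticAt_fun_sum _ fun j _ =>
    ((ContinuousLinearMap.smulRightL ℂ (Fin r → ℂ) F (ContinuousLinearMap.proj j)).analyticAt _).comp (he j)
  have hAd : ∀ᶠ y in 𝓝[X] x, ∀ v, A y v = 𝔡 v y := by
    filter_upwards [eventually_all.2 he'] with y hy v
    conv_rhs => rw [← Finset.univ_sum_single v]
    simp only [A, sum_apply, ContinuousLinearMap.smulRight_apply, ContinuousLinearMap.proj_apply,
      map_sum, Finset.sum_apply]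
    refine Finset.sum_congr rfl fun j _ => ?_
    rw [← hy j, ← Pi.smul_apply, ← map_smul, ← Pi.single_smul, smul_eq_mul, mul_one]
  have h0 : ∀ v, A x v = 𝔡 v x := hAd.self_of_nhdsWithin hx
  obtain ⟨l, hl⟩ := (A x : (Fin r → ℂ) →ₗ[ℂ] F).exists_leftInverse_of_injective
    (LinearMap.ker_eq_bot.2 fun v w h => hi ((h0 v).symm.trans (h.trans (h0 w))))
  let l' : F →L[ℂ] (Fin r → ℂ) := LinearMap.toContinuousLinearMap l
  let M : E → (Fin r → ℂ) →L[ℂ] (Fin r → ℂ) := fun y => l'.comp (A y)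
  have hM : AnalyticAt ℂ M x := ((ContinuousLinearMap.compL ℂ (Fin r → ℂ) F (Fin r → ℂ) l').analyticAt _).comp hA
  have hM1 : M x = ((1 : ((Fin r → ℂ) →L[ℂ] (Fin r → ℂ))ˣ) : (Fin r → ℂ) →L[ℂ] (Fin r → ℂ)) :=
    ContinuousLinearMap.ext fun v => LinearMap.congr_fun hl v
  have hI : AnalyticAt ℂ (fun y => Ring.inverse (M y)) x :=
    AnalyticAt.comp (g := Ring.inverse) (hM1 ▸ analyticAt_inverse 1) hM
  refine ⟨fun y => (Ring.inverse (M y)).comp l',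
    (((ContinuousLinearMap.compL ℂ F (Fin r → ℂ) (Fin r → ℂ)).flip l').analyticAt _).comp hI, ?_⟩
  have hu : ∀ᶠ y in 𝓝 x, IsUnit (M y) :=
    hM.continuousAt.eventually (Units.isOpen.mem_nhds (by rw [hM1]; exact Units.isUnit _))
  filter_upwards [hAd, mem_nhdsWithin_of_mem_nhds hu] with y hy hy' v
  rw [← hy v]
  exact DFunLike.congr_fun (Ring.inverse_mul_cancel _ hy') v

/-- rotation equivariance of a holomorphic function on the disc -/
theorem sp_rot {v : ℂ → F} (hv : AnalyticOnNhd ℂ v (ball 0 1)) {a b : ℕ} {ζ : ℂ}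
    (h : ∀ θ : ℝ, exp (θ * I) ^ a • v (exp (θ * I) * ζ) = exp (θ * I) ^ b • v ζ) (hζ : ζ ∈ ball (0 : ℂ) 1) {w : ℂ}
    (hw : w * ζ ∈ ball (0 : ℂ) 1) : w ^ a • v (w * ζ) = w ^ b • v ζ := by
  have hc : Convex ℝ {w : ℂ | w * ζ ∈ ball (0 : ℂ) 1} :=
    (convex_ball (0 : ℂ) 1).linear_preimage (LinearMap.mulRight ℝ ζ)
  have h1 : AnalyticOnNhd ℂ (fun w : ℂ => w ^ a • v (w * ζ)) {w : ℂ | w * ζ ∈ ball (0 : ℂ) 1} := fun w hw =>
    (analyticAt_id.pow a).smul (AnalyticAt.comp (f := fun w => w * ζ) (hv _ hw) (analyticAt_id.mul analyticAt_const))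
  have h2 : AnalyticOnNhd ℂ (fun w : ℂ => w ^ b • v ζ) {w : ℂ | w * ζ ∈ ball (0 : ℂ) 1} := fun w _ =>
    (analyticAt_id.pow b).smul analyticAt_const
  refine h1.eqOn_of_preconnected_of_frequently_eq h2 hc.isPreconnected (z₀ := 1) (by simpa using hζ) ?_ hw
  have h3 : Tendsto (fun θ : ℝ => exp (θ * I)) (𝓝[≠] 0) (𝓝[≠] 1) := by
    refine tendsto_nhdsWithin_iff.2 ⟨?_, ?_⟩
    · have : Continuous fun θ : ℝ => exp (θ * I) := by fun_prop
      simpa using (this.tendsto 0).mono_left nhdsWithin_le_nhds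
    · filter_upwards [self_mem_nhdsWithin, mem_nhdsWithin_of_mem_nhds (Ioo_mem_nhds (a := -1) (b := 1) (by norm_num)
        (by norm_num))] with θ h0 h1 h2
      obtain ⟨k, hk⟩ := exp_eq_one_iff.1 h2
      have h4 : θ = k * (2 * Real.pi) := by
        have := congrArg Complex.im hk
        simpa using this
      have h5 : k = 0 := by
        by_contra h5
        have h6 : (1 : ℝ) ≤ |(k : ℝ)| := by exact_mod_cast Int.one_le_abs h5
        have h7 : |θ| < 1 := abs_lt.2 h1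
        rw [h4, abs_mul, abs_of_pos Real.two_pi_pos] at h7
        nlinarith [Real.pi_gt_three]
      exact h0 (by rw [h4, h5]; simp)
  exact h3.frequently (Frequently.of_forall h)

/-- a holomorphic map through which all bounded holomorphic functions pull back stays in `X` -/
theorem sp_ext {n m : ℕ} {X : Set E} (hX : CM n X) {M : Set F} (hM : Mfd m M) (hc : IsPreconnected M) {g : F → E}
    (hg : AnalyticOn ℂ g M) {T : (E → ℂ) → F → ℂ}
    (hT : ∀ f, AnalyticOn ℂ f X → (∀ z ∈ X, ‖f z‖ ≤ 1) → AnalyticOn ℂ (T f) M)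
    (hb : ∀ p ∈ M, ∃ U ∈ 𝓝 p, ∃ C : ℝ, ∀ f, AnalyticOn ℂ f X → (∀ z ∈ X, ‖f z‖ ≤ 1) → ∀ q ∈ M ∩ U, ‖T f q‖ ≤ C)
    {p₀ : F} (hp₀ : p₀ ∈ M) (h0 : ∀ᶠ p in 𝓝[M] p₀, g p ∈ X ∧
      ∀ f, AnalyticOn ℂ f X → (∀ z ∈ X, ‖f z‖ ≤ 1) → f (g p) = T f p) : MapsTo g M X := by
  let Q : F → Prop := fun p => g p ∈ X ∧ ∀ f, AnalyticOn ℂ f X → (∀ z ∈ X, ‖f z‖ ≤ 1) → f (g p) = T f p
  have key : M ⊆ {p | ∀ᶠ q in 𝓝[M] p, Q q} := by
    refine clopen_ind hc ⟨p₀, hp₀, h0⟩ (fun p _ hp => eventually_eventually_nhdsWithin.2 hp) fun p hp hfr => ?_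
    obtain ⟨ε, ε0, hε⟩ := hX.lim_mem
    obtain ⟨U, hU, C, hC⟩ := hb p hp
    obtain ⟨O, hO, hOU, L, L0, hL⟩ := unif_lip (F := ℂ) hM hp hU
    have hgc : Tendsto g (𝓝[M] p) (𝓝 (g p)) := hg.continuousOn p hp
    have hpX : g p ∈ X := by
      obtain ⟨δ, δ0, hδ⟩ : ∃ δ > 0, L * |C| * (2 * δ) ≤ ε :=
        ⟨ε / (2 * (L * |C| + 1)), by positivity, by
          rw [mul_div_assoc', mul_div_assoc', div_le_iff₀ (by positivity)]; nlinarith⟩
      have hE : ∀ᶠ q in 𝓝[M] p, q ∈ M ∧ q ∈ O ∧ q ∈ ball p δ :=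
        eventually_mem_nhdsWithin.and (mem_nhdsWithin_of_mem_nhds (inter_mem hO (ball_mem_nhds p δ0)))
      obtain ⟨a, ha, ha'⟩ := (hfr.and_eventually hE).exists
      have qa := ha.self_of_nhdsWithin ha'.1
      have := frequently_iff_neBot.1 hfr
      refine hε (l := 𝓝[M] p ⊓ 𝓟 {q | q ∈ {p | ∀ᶠ q in 𝓝[M] p, Q q}}) (y := g) qa.1 ?_ (hgc.mono_left inf_le_left)
      filter_upwards [mem_inf_of_left hE, mem_inf_of_right (mem_principal_self _)] with q hq hq'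
      have qq := Eventually.self_of_nhdsWithin hq' hq.1
      refine ⟨qq.1, cd_le fun f hf hf1 => ?_⟩
      rw [qa.2 f hf hf1, qq.2 f hf hf1]
      refine ((hL (T f) |C| ((hT f hf hf1).mono inter_subset_left) fun y hy =>
        (hC f hf hf1 y hy).trans (le_abs_self C)).1 a ⟨ha'.1, ha'.2.1⟩ q ⟨hq.1, hq.2.1⟩).trans (le_trans ?_ hδ)
      refine mul_le_mul_of_nonneg_left ?_ (by positivity)
      rw [← dist_eq_norm]
      linarith [dist_triangle_right a q p, mem_ball.1 ha'.2.2, mem_ball.1 hq.2.2]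
    obtain ⟨h, Ψ, O₁, W, c, hW⟩ := hX.mfd _ hpX
    have h1 : ∀ᶠ q in 𝓝[M] p, g q ∈ W ∧ Ψ (g q) ∈ O₁ :=
      (hgc.eventually (c.oW.mem_nhds hW)).and (((c.aΨ _ hW).continuousAt.tendsto.comp hgc).eventually
        (c.oO.mem_nhds (c.hW _ ⟨hpX, hW⟩).1))
    obtain ⟨V, hV, hV'⟩ := mem_nhdsWithin_iff_exists_mem_nhds_inter.1 h1
    obtain ⟨N, oN, pN, NV, cN, -⟩ := hM.nbhd hp hV
    have hN : ∀ q ∈ M ∩ N, g q ∈ W ∧ Ψ (g q) ∈ O₁ := fun q hq => hV' ⟨NV hq.2, hq.1⟩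
    obtain ⟨a, ha, ha'⟩ := (hfr.and_eventually (inter_mem_nhdsWithin M (oN.mem_nhds pN))).exists
    have ha2 : ∀ᶠ q in 𝓝[M ∩ N] a, Q q := Eventually.filter_mono (nhdsWithin_mono _ inter_subset_left) ha
    have g1 : AnalyticOn ℂ g (M ∩ N) := hg.mono inter_subset_left
    have h2 : ∀ q ∈ M ∩ N, g q = h (Ψ (g q)) := ident (hM.inter oN) cN g1
      (fun q hq => AnalyticAt.comp_analyticWithinAt (f := fun q => Ψ (g q)) (c.ah _ (hN q hq).2)
        ((c.aΨ _ (hN q hq).1).comp_analyticWithinAt (g1 q hq)))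
      ha' (by
        filter_upwards [ha2, self_mem_nhdsWithin] with q hq hq'
        exact (c.hW _ ⟨hq.1, (hN q hq').1⟩).2.symm)
    have h3 : MapsTo g (M ∩ N) X := fun q hq => by rw [h2 q hq]; exact (c.hO _ (hN q hq).2).1.1
    filter_upwards [inter_mem_nhdsWithin M (oN.mem_nhds pN)] with q hq
    exact ⟨h3 hq, fun f hf hf1 => ident (hM.inter oN) cN (hf.comp g1 h3) ((hT f hf hf1).mono inter_subset_left) ha'
      (ha2.mono fun q hq => hq.2 f hf hf1) q hq⟩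
  exact fun p hp => (Eventually.self_of_nhdsWithin (key hp) hp).1

/-- an injective immersion between manifolds of the same dimension is biholomorphic onto its open image -/
theorem sp_bih {n : ℕ} {X : Set E} {M : Set F} (hX : Mfd n X) (hM : Mfd n M) {f : E → F} (hf : AnalyticOn ℂ f X)
    (hm : MapsTo f X M) (hi : InjOn f X) (hd : ∀ x ∈ X, ∀ v ∈ Tan X x, Dv X f x v = 0 → v = 0) [Nonempty E] :
    Bih X (f '' X) f (Function.invFunOn f X) ∧ ∀ p ∈ f '' X, ∀ᶠ q in 𝓝[M] p, q ∈ f '' X := by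
  have key : ∀ x ∈ X, ∃ O', IsOpen O' ∧ f x ∈ O' ∧ ∃ g : F → E, AnalyticOn ℂ g (M ∩ O') ∧
      ∀ q ∈ M ∩ O', g q ∈ X ∧ f (g q) = q := by
    intro x hx
    obtain ⟨O, O', g, -, oO', xO, -, b⟩ := loc_inv hX hM hx univ_mem (hf.mono inter_subset_left)
      (hm.mono_left inter_subset_left) (hd x hx)
    exact ⟨O', oO', (b.mf ⟨hx, xO⟩).2, g, b.ag, fun q hq => ⟨(b.mg hq).1, b.fg q hq⟩⟩
  have hl := hi.leftInvOn_invFunOn
  refine ⟨⟨hf, anOn_of_local ?_, mapsTo_image f X, ?_, fun x hx => hl hx, ?_⟩, ?_⟩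
  · rintro _ ⟨x, hx, rfl⟩
    obtain ⟨O', oO', xO, g, ag, hg⟩ := key x hx
    have hs : f '' X ∩ O' ⊆ M ∩ O' := inter_subset_inter_left _ hm.image_subset
    refine ⟨O', oO'.mem_nhds xO, (ag.mono hs).congr fun q hq => ?_⟩
    conv_lhs => rw [← (hg q (hs hq)).2]
    exact hl (hg q (hs hq)).1
  · rintro _ ⟨x, hx, rfl⟩
    rw [hl hx]; exact hx
  · rintro _ ⟨x, hx, rfl⟩
    rw [hl hx]
  · rintro _ ⟨x, hx, rfl⟩
    obtain ⟨O', oO', xO, g, -, hg⟩ := key x hx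
    filter_upwards [inter_mem_nhdsWithin M (oO'.mem_nhds xO)] with q hq
    exact ⟨g q, hg q hq⟩

theorem sp_slice {X : Set E} {U : Set G} {g : G × E → F} (hg : AnalyticOn ℂ g (U ×ˢ X)) {ζ : G} (hζ : ζ ∈ U) :
    AnalyticOn ℂ (fun z => g (ζ, z)) X :=
  hg.comp (g := fun z => (ζ, z)) (analyticOn_const.prod analyticOn_id) fun _ hz => mk_mem_prod hζ hz

theorem sp_slice' {X : Set E} {U : Set G} (hU : IsOpen U) {g : G × E → F} (hg : AnalyticOn ℂ g (U ×ˢ X)) {z : E}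
    (hz : z ∈ X) : AnalyticOnNhd ℂ (fun ζ => g (ζ, z)) U :=
  hU.analyticOn_iff_analyticOnNhd.1
    (hg.comp (g := fun ζ => (ζ, z)) (analyticOn_id.prod analyticOn_const) fun _ hζ => mk_mem_prod hζ hz)

/-- derivatives depend holomorphically on parameters -/
theorem sp_Dv_an {X : Set E} {U : Set G} (hU : IsOpen U) {g : G × E → F} (hg : AnalyticOn ℂ g (U ×ˢ X)) {z v : E}
    (hz : z ∈ X) (hv : v ∈ Tan X z) : AnalyticOnNhd ℂ (fun ζ => Dv X (fun y => g (ζ, y)) z v) U := by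
  intro ζ hζ
  obtain ⟨K, hK, hK'⟩ := anOn_iff.1 hg (ζ, z) ⟨hζ, hz⟩
  have h1 : AnalyticAt ℂ (fun w : G => fderiv ℂ K (w, z) (0, v)) ζ :=
    ((ContinuousLinearMap.apply ℂ F ((0 : G), v)).analyticAt _).comp
      (AnalyticAt.comp (f := fun w : G => (w, z)) hK.fderiv (analyticAt_id.prod analyticAt_const))
  refine h1.congr ?_
  rw [nhdsWithin_prod_eq, hU.nhdsWithin_eq hζ] at hK'
  have h2 : ∀ᶠ w in 𝓝 ζ, AnalyticAt ℂ K (w, z) :=
    (Continuous.prodMk_left z).continuousAt.eventually hK.eventually_analyticAt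
  filter_upwards [h2, hK'.curry] with w hw hw'
  have h3 : HasFDerivAt (fun y => K (w, y)) ((fderiv ℂ K (w, z)).comp (ContinuousLinearMap.inr ℂ G E)) z :=
    hw.differentiableAt.hasFDerivAt.comp z (hasFDerivAt_prodMk_right w z)
  rw [Dv_eq_fderiv hz h3.differentiableAt hw' hv, h3.fderiv]
  rfl

end Crest.Agent.R264
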