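import Crest.Agent.R264.Split.Disc

set_option autoImplicit false
set_option linter.unusedSectionVars false
open Set Filter Topology Metric Complex

namespace Crest.Agent.R264

variable {E F G : Type}
  [NormedAddCommGroup E] [NormedSpace ℂ E] [NormedSpace ℝ E] [IsScalarTower ℝ ℂ E] [FiniteDimensional ℂ E]
  [NormedAddCommGroup F] [NormedSpace ℂ F] [NormedSpace ℝ F] [IsScalarTower ℝ ℂ F] [FiniteDimensional ℂ F]
  [NormedAddCommGroup G] [NormedSpace ℂ G] [NormedSpace ℝ G] [IsScalarTower ℝ ℂ G] [FiniteDimensional ℂ G]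

open scoped Real

variable {n : ℕ} {X : Set E} {φ : ℝ → E → E} {g : ℂ × E → E}

theorem sp_b0 : (0 : ℂ) ∈ ball (0 : ℂ) 1 := mem_ball_self one_pos

theorem Disc.wt (d : Disc X φ g) {u : E → F} (hu : AnalyticOn ℂ u X) {a b : ℕ}
    (h : ∀ θ : ℝ, ∀ z ∈ X, exp (θ * I) ^ a • u (φ θ z) = exp (θ * I) ^ b • u z) {ζ : ℂ} (hζ : ζ ∈ ball (0 : ℂ) 1)
    {z : E} (hz : z ∈ X) : ζ ^ a • u (g (ζ, z)) = ζ ^ b • u z := by
  have av : AnalyticOnNhd ℂ (fun w => u (g (w, z))) (ball 0 1) :=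
    sp_slice' isOpen_ball (hu.comp d.an fun p hp => d.maps _ hp.1 _ hp.2) hz
  have h1 : ∀ᶠ t : ℝ in 𝓝[<] 1, (ζ / t) ^ a • u (g (ζ, z)) = (ζ / t) ^ b • u (g (t, z)) := by
    filter_upwards [sp_ev_ball, Ioo_mem_nhdsLT (zero_lt_one' ℝ)] with t ht ht'
    have h2 : ζ / t * t = ζ := div_mul_cancel₀ _ (ofReal_ne_zero.2 ht'.1.ne')
    have := sp_rot av (a := a) (b := b) (fun θ => by
      simp only [d.rot θ _ ht z hz]; exact h θ _ (d.maps _ ht z hz)) ht (w := ζ / t) (by rwa [h2])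
    rwa [h2] at this
  have h2 : Tendsto (fun t : ℝ => ζ / t) (𝓝[<] 1) (𝓝 ζ) := by
    have : ContinuousAt (fun t : ℝ => ζ / t) 1 := continuousAt_const.div continuous_ofReal.continuousAt (by simp)
    simpa using this.tendsto.mono_left nhdsWithin_le_nhds
  have h3 : Tendsto (fun t : ℝ => g (t, z)) (𝓝[<] 1) (𝓝[X] z) :=
    tendsto_nhdsWithin_iff.2 ⟨d.lim.tendsto_at hz, sp_ev_ball.mono fun t ht => d.maps _ ht z hz⟩
  exact tendsto_nhds_unique ((h2.pow a).smul tendsto_const_nhds)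
    (((h2.pow b).smul ((hu.continuousOn z hz).tendsto.comp h3)).congr' (h1.mono fun t ht => ht.symm))

theorem Disc.wt0 (d : Disc X φ g) {u : E → F} (hu : AnalyticOn ℂ u X) (h : ∀ θ : ℝ, ∀ z ∈ X, u (φ θ z) = u z) {ζ : ℂ}
    (hζ : ζ ∈ ball (0 : ℂ) 1) {z : E} (hz : z ∈ X) : u (g (ζ, z)) = u z := by
  simpa using d.wt hu (a := 0) (b := 0) (by simpa using h) hζ hz

theorem Disc.wt1 (d : Disc X φ g) {u : E → F} (hu : AnalyticOn ℂ u X)
    (h : ∀ θ : ℝ, ∀ z ∈ X, u (φ θ z) = exp (θ * I) • u z) {ζ : ℂ} (hζ : ζ ∈ ball (0 : ℂ) 1) {z : E} (hz : z ∈ X) :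
    u (g (ζ, z)) = ζ • u z := by
  simpa using d.wt hu (a := 0) (b := 1) (by simpa using h) hζ hz

theorem Disc.wtn (d : Disc X φ g) {u : E → F} (hu : AnalyticOn ℂ u X)
    (h : ∀ θ : ℝ, ∀ z ∈ X, exp (θ * I) • u (φ θ z) = u z) {z : E} (hz : z ∈ X) : u z = 0 := by
  simpa using (d.wt hu (a := 1) (b := 0) (by simpa using h) sp_b0 hz).symm

theorem Disc.an0 (d : Disc X φ g) : AnalyticOn ℂ (fun z => g (0, z)) X := sp_slice d.an sp_b0

theorem Disc.maps0 (d : Disc X φ g) : MapsTo (fun z => g (0, z)) X X := fun z hz => d.maps _ sp_b0 z hz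

theorem Disc.idem (d : Disc X φ g) {ζ : ℂ} (hζ : ζ ∈ ball (0 : ℂ) 1) {z : E} (hz : z ∈ X) :
    g (0, g (ζ, z)) = g (0, z) := by rw [d.mul _ sp_b0 _ hζ z hz, zero_mul]

theorem Disc.fix (d : Disc X φ g) (θ : ℝ) {z : E} (hz : z ∈ X) : φ θ (g (0, z)) = g (0, z) := by
  rw [← d.rot θ _ sp_b0 z hz, mul_zero]

theorem Disc.inv (d : Disc X φ g) (θ : ℝ) {z : E} (hz : z ∈ X) : g (0, φ θ z) = g (0, z) := by
  rw [d.rot' θ _ sp_b0 z hz, mul_zero]

theorem Disc.Dv0 (d : Disc X φ g) (hX : Mfd n X) (h : Circ X φ) {x v : E} (hx : x ∈ X) (hv : v ∈ Tan X x)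
    (he : ∀ θ : ℝ, Dv X (φ θ) x v = v) : Dv X (fun z => g (0, z)) x v = v := by
  have h1 : ∀ z ∈ X, g (0, z) = four φ 0 (fun z => z) z := fun z hz => by
    rw [← d.wt0 (h.four_an hX 0 analyticOn_id).1 (fun θ z hz => by rw [h.four_wt _ _ θ hz]; simp) sp_b0 hz,
      Circ.four_fix 0 _ fun θ => d.fix θ hz, if_pos rfl]
  rw [Dv_congr hx (eventually_mem_nhdsWithin.mono h1), h.four_Dv hX 0 0 hx hv (by simpa using he), if_pos rfl]

theorem Disc.Dvn (d : Disc X φ g) (hX : Mfd n X) (h : Circ X φ) {x v : E} (hx : x ∈ X) (hv : v ∈ Tan X x)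
    (he : ∀ θ : ℝ, Dv X (φ θ) x v = exp (-(θ * I)) • v) : v = 0 := by
  have h1 : ∀ z ∈ X, four φ (-1) (fun z => z) z = 0 := fun z hz =>
    d.wtn (h.four_an hX (-1) analyticOn_id).1 (fun θ z hz => by
      rw [h.four_wt _ _ θ hz, smul_smul, ← exp_add]; simp) hz
  have h2 := h.four_Dv hX (-1) (-1) hx hv (by simpa using he)
  rw [Dv_congr (g := fun _ => 0) hx (eventually_mem_nhdsWithin.mono h1), Dv_const, if_pos rfl] at h2
  exact h2.symm

theorem Disc.eq_of (d : Disc X φ g) {z z' : E} (hz : z ∈ X) (hz' : z' ∈ X)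
    (h : ∀ᶠ ζ in 𝓝 (0 : ℂ), g (ζ, z) = g (ζ, z')) : z = z' := by
  have h1 := (sp_slice' isOpen_ball d.an hz).eqOn_of_preconnected_of_eventuallyEq (sp_slice' isOpen_ball d.an hz')
    (convex_ball 0 1).isPreconnected sp_b0 h
  exact tendsto_nhds_unique (d.lim.tendsto_at hz)
    ((d.lim.tendsto_at hz').congr' (sp_ev_ball.mono fun t ht => (h1 ht).symm))

theorem Disc.Dv_eq (d : Disc X φ g) (hX : Mfd n X) {z v : E} (hz : z ∈ X) (hv : v ∈ Tan X z)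
    (h : ∀ᶠ ζ in 𝓝 (0 : ℂ), Dv X (fun y => g (ζ, y)) z v = 0) : v = 0 := by
  have h1 := (sp_Dv_an isOpen_ball d.an hz hv).eqOn_zero_of_preconnected_of_eventuallyEq_zero
    (convex_ball 0 1).isPreconnected sp_b0 h
  have h2 := Dv_tendsto hX (fun x _ => ⟨univ, univ_mem, sp_ev_ball.mono fun t ht =>
    (sp_slice d.an ht).mono inter_subset_left⟩) d.lim hz hv
  rw [Dv_id hv] at h2
  exact tendsto_nhds_unique h2 (tendsto_const_nhds.congr' (sp_ev_ball.mono fun t ht => (h1 ht).symm))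

theorem Disc.tend0 (d : Disc X φ g) {z : E} (hz : z ∈ X) :
    Tendsto (fun ζ => g (ζ, z)) (𝓝 0) (𝓝[X] (g (0, z))) :=
  tendsto_nhdsWithin_iff.2 ⟨(sp_slice' isOpen_ball d.an hz 0 sp_b0).continuousAt,
    (isOpen_ball.eventually_mem sp_b0).mono fun ζ hζ => d.maps ζ hζ z hz⟩

end Crest.Agent.R264
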