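import Crest.Agent.R264.Split.Frame
import Crest.Agent.R264.Split.Wt

set_option autoImplicit false
set_option linter.unusedSectionVars false
open Set Filter Topology Metric Complex

namespace Crest.Agent.R264

variable {E F G : Type}
  [NormedAddCommGroup E] [NormedSpace ℂ E] [NormedSpace ℝ E] [IsScalarTower ℝ ℂ E] [FiniteDimensional ℂ E]
  [NormedAddCommGroup F] [NormedSpace ℂ F] [NormedSpace ℝ F] [IsScalarTower ℝ ℂ F] [FiniteDimensional ℂ F]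
  [NormedAddCommGroup G] [NormedSpace ℂ G] [NormedSpace ℝ G] [IsScalarTower ℝ ℂ G] [FiniteDimensional ℂ G]

open scoped Real

variable {L : Type} [LieRing L] [LieAlgebra ℝ L] [FiniteDimensional ℝ L] {ι : L →ₗ[ℝ] (E → E)} {X : Set E}
  {Z : L} {x₀ : E} {n r : ℕ} {𝔡 : (Fin r → ℂ) →ₗ[ℂ] (E → E)} {c : L → Fin r → ℂ}

theorem sp_Dv_frame (𝔡 : (Fin r → ℂ) →ₗ[ℂ] (E → F)) {x w : E} (hd : ∀ v, DifferentiableWithinAt ℂ (𝔡 v) X x)
    {τ : E → Fin r → ℂ} (hτ : DifferentiableWithinAt ℂ τ X x) (h0 : τ x = 0) (hw : w ∈ Tan X x) :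
    Dv X (fun y => 𝔡 (τ y) y) x w = 𝔡 (Dv X τ x w) x := by
  classical
  have e : ∀ v y, 𝔡 v y = ∑ j, v j • 𝔡 (Pi.single j 1) y := fun v y => by
    conv_lhs => rw [← Finset.univ_sum_single v]
    rw [map_sum, Finset.sum_apply]
    refine Finset.sum_congr rfl fun j _ => ?_
    rw [← Pi.smul_apply, ← map_smul, ← Pi.single_smul, smul_eq_mul, mul_one]
  have h1 := HasFDerivWithinAt.fun_sum (u := Finset.univ) fun j _ =>
    (hasFDerivWithinAt_pi'.1 hτ.hasFDerivWithinAt j).smul (hd (Pi.single j 1)).hasFDerivWithinAt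
  rw [funext fun y => e (τ y) y]
  refine (Dv_of_has h1 hw).trans ?_
  rw [e, sum_apply]
  refine Finset.sum_congr rfl fun j _ => ?_
  simp [h0, Dv]

theorem Fr.coef (f : Fr X ι Z x₀ 𝔡 c) (hcx : CxVal X (range ι))
    (hr : ∀ x ∈ X, Module.finrank ℝ (LinearMap.range (evx ι x)) = 2 * r) {z : E} (hz : z ∈ X)
    (hi : Function.Injective fun v => 𝔡 v z) : ∃ Λ : E → E →L[ℂ] (Fin r → ℂ), AnalyticAt ℂ Λ z ∧
      ∀ᶠ y in 𝓝[X] z, (∀ v, Λ y (𝔡 v y) = v) ∧ ∀ a, 𝔡 (Λ y (ι a y)) y = ι a y := by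
  obtain ⟨Λ, h1, h2⟩ := sp_coef hz 𝔡 (fun v => (f.vf v).an z hz) hi
  refine ⟨Λ, h1, ?_⟩
  filter_upwards [h2, self_mem_nhdsWithin] with y hy hyX
  refine ⟨hy, fun a => ?_⟩
  obtain ⟨v, hv⟩ := f.span hcx hyX (hr y hyX) (fun v w e => by rw [← hy v, ← hy w]; exact congrArg _ e) a
  rw [← hv, hy]

theorem Fr.DZ (f : Fr X ι Z x₀ 𝔡 c) {y : E} (hy : y ∈ X) (h0 : ι Z y = 0) (v : Fin r → ℂ) :
    Dv X (ι Z) y (𝔡 v y) = I • 𝔡 v y := by
  have := f.eig v y hy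
  rwa [br_apply _ _ hy, h0, map_zero, zero_sub, neg_smul, neg_inj] at this

/-- the linearised flow at a zero of the field -/
theorem Gen.Dv_fl_eq (hX : Mfd n X) {W : E → E} (hW : Gen X W) {x v : E} (hx : x ∈ X) (h0 : W x = 0) (hv : v ∈ Tan X x)
    {u : ℝ → E} (hu : ∀ t, HasDerivAt u (Dv X W x (u t)) t) (u0 : u 0 = v) (t : ℝ) : Dv X (fl X W t) x v = u t := by
  refine ode_unique (X := univ) (W := Dv X W x) ((Dv X W x).analyticOn _) isOpen_univ isPreconnected_univ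
    (c := fun t => Dv X (fl X W t) x v) (fun t _ => ⟨trivial, ?_⟩) (fun t _ => ⟨trivial, hu t⟩) (mem_univ 0) ?_ (mem_univ t)
  · have := hW.Dv_fl hX hx hv t
    rwa [hW.fl_fix hx h0] at this
  · rw [u0]
    exact (congrArg (fun A : E →L[ℂ] E => A v) (Dv_congr hx (eventually_mem_nhdsWithin.mono hW.isFlow.zero))).trans
      (Dv_id hv)

theorem Fr.disc (f : Fr X ι Z x₀ 𝔡 c) (hX : CM n X) (h : LieRep X ι) (hcx : CxVal X (range ι)) (hx₀ : x₀ ∈ X)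
    (hr : ∀ x ∈ X, Module.finrank ℝ (LinearMap.range (evx ι x)) = 2 * r) :
    Circ X (fl X (ι Z)) ∧ ∃ g, Disc X (fl X (ι Z)) g := by
  have hZ := h.gen Z
  obtain ⟨Λ, aΛ, hΛ⟩ := f.coef hcx hr hx₀ f.inj
  set A := Dv X (ι Z) x₀ with hA
  have h1 : ∀ w ∈ Tan X x₀, ∃ v, A w = 𝔡 v x₀ := fun w hw => by
    have aτ : DifferentiableWithinAt ℂ (fun y => Λ y (ι Z y)) X x₀ :=
      aΛ.differentiableAt.differentiableWithinAt.clm_apply (hZ.an.differentiableOn _ hx₀)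
    exact ⟨_, by
      rw [hA, Dv_congr hx₀ (hΛ.mono fun y hy => (hy.2 Z).symm),
        sp_Dv_frame 𝔡 (fun v => (f.vf v).an.differentiableOn _ hx₀) aτ (by rw [f.zero, map_zero]) hw]⟩
  have h2 : ∀ w ∈ Tan X x₀, A w ∈ Tan X x₀ ∧ A (A w) = I • A w := fun w hw => by
    obtain ⟨v, hv⟩ := h1 w hw
    rw [hv]
    exact ⟨(f.vf v).tan _ hx₀, f.DZ hx₀ f.zero v⟩
  have h3 : ∀ v ∈ Tan X x₀, ∀ θ : ℝ, Dv X (fl X (ι Z) θ) x₀ v = v + (exp (θ * I) - 1) • ((-I) • A) v := by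
    intro v hv
    refine hZ.Dv_fl_eq hX.mfd hx₀ f.zero hv (fun t => ?_) (by simp)
    have h4 : HasDerivAt (fun θ : ℝ => exp (θ * I) - 1) (exp (t * I) * I) t := by
      simpa using (((hasDerivAt_id (t : ℂ)).mul_const I).cexp.sub_const 1).comp_ofReal
    convert (h4.smul_const (((-I) • A) v)).const_add v using 1
    simp only [← hA, smul_apply, map_add, map_smul, (h2 v hv).2]
    match_scalars
    linear_combination I_mul_I
  have hfix := hZ.fl_fix hx₀ f.zero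
  have hc : Circ X (fl X (ι Z)) := ⟨hZ.isFlow.toIsGrp, hZ.isFlow.toIsGrp.continuousOn hX fun x hx =>
    continuous_iff_continuousAt.2 fun t => (hZ.isFlow.hasDerivAt hx t).continuousAt,
    cartan hX.mfd hX.conn.isPreconnected hX.bdd (hZ.isFlow.an _) (hZ.isFlow.maps _) hx₀ (hfix _) fun v hv => by
      rw [h3 v hv]; simp⟩
  refine ⟨hc, hc.disc hX hx₀ hfix ((-I) • A) fun v hv => ⟨(Tan X x₀).smul_mem _ (h2 v hv).1, ?_, h3 v hv⟩⟩
  simp only [smul_apply, map_smul, (h2 v hv).2]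
  match_scalars
  linear_combination I * I_mul_I

end Crest.Agent.R264
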