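import Crest.Agent.R264.Split.Per

set_option autoImplicit false
set_option linter.unusedSectionVars false
open Set Filter Topology Metric Complex

namespace Crest.Agent.R264

variable {E F G : Type}
  [NormedAddCommGroup E] [NormedSpace ℂ E] [NormedSpace ℝ E] [IsScalarTower ℝ ℂ E] [FiniteDimensional ℂ E]
  [NormedAddCommGroup F] [NormedSpace ℂ F] [NormedSpace ℝ F] [IsScalarTower ℝ ℂ F] [FiniteDimensional ℂ F]
  [NormedAddCommGroup G] [NormedSpace ℂ G] [NormedSpace ℝ G] [IsScalarTower ℝ ℂ G] [FiniteDimensional ℂ G]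

open scoped Real

variable {L : Type} [LieRing L] [LieAlgebra ℝ L] [FiniteDimensional ℝ L] {ι : L →ₗ[ℝ] (E → E)} {X : Set E}
  {Z : L} {x₀ : E} {n r : ℕ} {𝔡 : (Fin r → ℂ) →ₗ[ℂ] (E → E)} {c : L → Fin r → ℂ} {g : ℂ × E → E}

/-- the fibre coordinate -/
structure Th (X : Set E) (ι : L →ₗ[ℝ] (E → E)) (Z : L) {r : ℕ} (𝔡 : (Fin r → ℂ) →ₗ[ℂ] (E → E))
    (c : L → Fin r → ℂ) (g : ℂ × E → E) (τ : E → Fin r → ℂ) : Prop where
  kill : ∀ a, ∀ z ∈ X, Dv X (fun z => g (0, z)) z (ι a z) = 0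
  valY : ∀ a, ∀ z ∈ X, ι a (g (0, z)) = 𝔡 (c a) (g (0, z))
  an : AnalyticOn ℂ τ X
  eqZ : ∀ z ∈ X, ι Z z = I • 𝔡 (τ z) z
  hom : ∀ ζ ∈ ball (0 : ℂ) 1, ∀ z ∈ X, τ (g (ζ, z)) = ζ • τ z
  dτ : ∀ v, ∀ z ∈ X, Dv X τ z (𝔡 v z) = v
  imm : ∀ z ∈ X, ∀ w ∈ Tan X (g (0, z)), Dv X τ (g (0, z)) w = 0 → Dv X (fun z => g (0, z)) (g (0, z)) w = 0 → w = 0
  bdd : ∀ y ∈ X, Bornology.IsBounded (τ '' {z | z ∈ X ∧ g (0, z) = y})

theorem Fr.Dfl (f : Fr X ι Z x₀ 𝔡 c) (hX : Mfd n X) (h : LieRep X ι) (v : Fin r → ℂ) (θ : ℝ) {z : E} (hz : z ∈ X) :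
    Dv X (fl X (ι Z) θ) z (𝔡 v z) = exp (θ * I) • 𝔡 v (fl X (ι Z) θ z) := by
  rw [(h.gen Z).push_fl_eig hX (f.vf v) (f.eig v) θ hz, neg_mul, neg_neg, mul_comm]

theorem Fr.der_rot (f : Fr X ι Z x₀ 𝔡 c) (hX : Mfd n X) (h : LieRep X ι) {u : E → F} (hu : AnalyticOn ℂ u X)
    (v : Fin r → ℂ) (θ : ℝ) {z : E} (hz : z ∈ X) {s : ℂ} (hs : ∀ y ∈ X, u (fl X (ι Z) θ y) = s • u y) :
    exp (θ * I) • der X (𝔡 v) u (fl X (ι Z) θ z) = s • der X (𝔡 v) u z := by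
  have hφ := (h.gen Z).isFlow
  rw [der, ← map_smul, ← f.Dfl hX h v θ hz, ← Dv_comp ((hφ.an θ).differentiableOn z hz)
    (hu.differentiableOn _ (hφ.maps θ hz)) (eventually_mem_nhdsWithin.mono (hφ.maps θ)) ((f.vf v).tan z hz),
    Dv_congr hz (eventually_mem_nhdsWithin.mono hs), Dv_const_smul _ (hu.differentiableOn z hz) ((f.vf v).tan z hz)]
  rfl

theorem Fr.th (f : Fr X ι Z x₀ 𝔡 c) (hX : CM n X) (h : LieRep X ι) (hcx : CxVal X (range ι)) (hx₀ : x₀ ∈ X)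
    (hr : ∀ x ∈ X, Module.finrank ℝ (LinearMap.range (evx ι x)) = 2 * r) (hc : Circ X (fl X (ι Z)))
    (d : Disc X (fl X (ι Z)) g) : ∃ τ, Th X ι Z 𝔡 c g τ := by
  have hM := hX.mfd
  have hZ := h.gen Z
  have e0 : ∀ θ : ℝ, exp (θ * I) ≠ 0 := fun θ => exp_ne_zero _
  have k1 : ∀ v, ∀ z ∈ X, der X (𝔡 v) (fun z => g (0, z)) z = 0 := fun v z hz =>
    d.wtn (der_an hM (f.vf v) d.an0) (fun θ z hz => by
      rw [f.der_rot hM h d.an0 v θ hz (s := 1) fun y hy => by rw [d.inv θ hy, one_smul], one_smul]) hz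
  have kill : ∀ a, ∀ z ∈ X, Dv X (fun z => g (0, z)) z (ι a z) = 0 := fun a => by
    obtain ⟨Λ, -, hΛ⟩ := f.coef hcx hr hx₀ f.inj
    refine ident (g := fun _ => 0) hM hX.conn.isPreconnected (der_an hM (h.gen a).vf d.an0) analyticOn_const hx₀ ?_
    filter_upwards [hΛ, self_mem_nhdsWithin] with y hy hyX
    change Dv X _ y (ι a y) = 0
    rw [← hy.2 a]
    exact k1 _ y hyX
  have valY : ∀ a, ∀ z ∈ X, ι a (g (0, z)) = 𝔡 (c a) (g (0, z)) := fun a z hz => by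
    obtain ⟨k, W, hk, hW, hW', e⟩ := f.dec a
    have hy := d.maps0 hz
    have h1 : ι k (g (0, z)) = 0 := by
      rw [← kill k _ hy]
      refine (d.Dv0 hM hc hy ((h.gen k).vf.tan _ hy) fun θ => ?_).symm
      rw [hZ.push_fl_eig hM (h.gen k).vf (c := 0) (fun y _ => by rw [← h.lie, hk]; simp) θ hy, d.fix θ hz]
      simp
    have h2 : W (g (0, z)) = 0 := d.Dvn hM hc hy (hW.tan _ hy) fun θ => by
      rw [hZ.push_fl_eig hM hW hW' θ hy, d.fix θ hz, mul_comm]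
    rw [e, Pi.add_apply, Pi.add_apply, h1, h2, zero_add, add_zero]
  have injY : ∀ z ∈ X, Function.Injective fun v => 𝔡 v (g (0, z)) := fun z hz =>
    f.inj_of hcx (d.maps0 hz) (hr _ (d.maps0 hz)) fun a => ⟨_, (valY a z hz).symm⟩
  have aγ := (hc.four_an hM 1 (analyticOn_id (𝕜 := ℂ) (s := X))).1
  have wγ : ∀ θ : ℝ, ∀ y ∈ X, four (fl X (ι Z)) 1 (fun z => z) (fl X (ι Z) θ y) =
      exp (θ * I) • four (fl X (ι Z)) 1 (fun z => z) y := fun θ y hy => by rw [hc.four_wt _ _ θ hy]; simp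
  have dγ : ∀ v, ∀ z ∈ X, der X (𝔡 v) (four (fl X (ι Z)) 1 fun z => z) z = 𝔡 v (g (0, z)) := fun v z hz => by
    have hy := d.maps0 hz
    rw [← d.wt0 (der_an hM (f.vf v) aγ) (fun θ z hz => smul_right_injective _ (e0 θ)
      (f.der_rot hM h aγ v θ hz (wγ θ))) sp_b0 hz, der, hc.four_Dv hM 1 1 hy ((f.vf v).tan _ hy) fun θ => by
        rw [f.Dfl hM h v θ hy, d.fix θ hz]; simp, if_pos rfl]
  have inj : ∀ z ∈ X, Function.Injective fun v => 𝔡 v z := fun z hz v w e => injY z hz (by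
    change 𝔡 v _ = 𝔡 w _
    rw [← dγ v z hz, ← dγ w z hz, der, der]
    exact congrArg _ e)
  choose! σ hσ using fun z (hz : z ∈ X) => f.span hcx hz (hr z hz) (inj z hz) Z
  have eqZ : ∀ z ∈ X, ι Z z = I • 𝔡 ((-I) • σ z) z := fun z hz => by
    rw [map_smul, Pi.smul_apply, smul_smul, hσ z hz]; simp
  have aτ : AnalyticOn ℂ (fun z => (-I) • σ z) X := fun z hz => by
    obtain ⟨Λ, aΛ, hΛ⟩ := f.coef hcx hr hz (inj z hz)
    have h1 : AnalyticWithinAt ℂ (fun y => Λ y (ι Z y)) X z :=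
      ((ContinuousLinearMap.apply ℂ (Fin r → ℂ)).flip.analyticAt_bilinear _).comp_analyticWithinAt
        (f := fun y => (Λ y, ι Z y)) (aΛ.analyticWithinAt.prod (hZ.an z hz))
    have h2 : ∀ᶠ y in 𝓝[X] z, σ y = Λ y (ι Z y) := by
      filter_upwards [hΛ, self_mem_nhdsWithin] with y hy hyX
      rw [← hσ y hyX, hy.1]
    exact analyticWithinAt_const.smul (h1.congr_of_eventuallyEq h2 (h2.self_of_nhdsWithin hz))
  obtain ⟨τ, aτ, eqZ⟩ : ∃ τ : E → Fin r → ℂ, AnalyticOn ℂ τ X ∧ ∀ z ∈ X, ι Z z = I • 𝔡 (τ z) z := ⟨_, aτ, eqZ⟩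
  have wτ : ∀ θ : ℝ, ∀ y ∈ X, τ (fl X (ι Z) θ y) = exp (θ * I) • τ y := fun θ y hy => inj _ (hc.maps θ hy) (by
    have h1 := hZ.Dv_fl_self hM hy θ
    rw [eqZ y hy, eqZ _ (hc.maps θ hy), map_smul, f.Dfl hM h _ θ hy] at h1
    change 𝔡 _ _ = 𝔡 _ _
    rw [map_smul]
    exact (smul_right_injective _ I_ne_zero h1).symm)
  have hom : ∀ ζ ∈ ball (0 : ℂ) 1, ∀ z ∈ X, τ (g (ζ, z)) = ζ • τ z := fun ζ hζ z hz => d.wt1 aτ wτ hζ hz
  have τ0 : ∀ z ∈ X, τ (g (0, z)) = 0 := fun z hz => by rw [hom _ sp_b0 z hz, zero_smul]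
  have Z0 : ∀ z ∈ X, ι Z (g (0, z)) = 0 := fun z hz => by rw [eqZ _ (d.maps0 hz), τ0 z hz]; simp
  have DZ : ∀ z ∈ X, ∀ w ∈ Tan X (g (0, z)), Dv X (ι Z) (g (0, z)) w = I • 𝔡 (Dv X τ (g (0, z)) w) (g (0, z)) := by
    intro z hz w hw
    have hy := d.maps0 hz
    have h1 : ∀ v, DifferentiableWithinAt ℂ ((I • 𝔡) v) X (g (0, z)) := fun v =>
      ((f.vf v).smul I).an.differentiableOn _ hy
    exact (congrArg (fun A : E →L[ℂ] E => A w) (Dv_congr hy (eventually_mem_nhdsWithin.mono eqZ))).trans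
      (sp_Dv_frame (I • 𝔡) h1 (aτ.differentiableOn _ hy) (τ0 z hz) hw)
  refine ⟨τ, kill, valY, aτ, eqZ, hom, fun v z hz => ?_, fun z hz w hw h1 h2 => ?_, fun y hy => ?_⟩
  · have hy := d.maps0 hz
    have h1 := DZ z hz _ ((f.vf v).tan _ hy)
    rw [f.DZ hy (Z0 z hz)] at h1
    refine (d.wt0 (der_an hM (f.vf v) aτ) (fun θ z hz => smul_right_injective _ (e0 θ)
      (f.der_rot hM h aτ v θ hz (wτ θ))) sp_b0 hz).symm.trans ?_
    exact (injY z hz (smul_right_injective _ I_ne_zero h1)).symm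
  · have hy := d.maps0 hz
    rw [← h2]
    refine (d.Dv0 hM hc hy hw (hZ.Dv_fl_eq hM hy (Z0 z hz) hw (fun t => ?_) rfl)).symm
    rw [DZ z hz w hw, h1, map_zero, Pi.zero_apply, smul_zero]
    exact hasDerivAt_const t w
  · have h1 : ∀ z ∈ X, four (fl X (ι Z)) 1 (fun z => z) z = 𝔡 (τ z) (g (0, z)) := fun z hz => by
      have h2 := hasDerivAt_comp_curve (hZ.isFlow.hasDerivAt hz 0) (Eventually.of_forall fun s => hc.maps s hz)
        (aγ.differentiableOn _ (hc.maps 0 hz))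
      have h3 : HasDerivAt (fun θ : ℝ => exp (θ * I)) (exp ((0 : ℝ) * I) * I) 0 := by
        simpa using (((hasDerivAt_id ((0 : ℝ) : ℂ)).mul_const I).cexp).comp_ofReal
      have h4 := h2.unique ((h3.smul_const _).congr_of_eventuallyEq (Eventually.of_forall fun s => wγ s z hz))
      rw [hc.zero z hz, eqZ z hz, map_smul] at h4
      rw [← dγ _ z hz, der, eq_comm]
      simpa using h4
    by_cases hne : {z | z ∈ X ∧ g (0, z) = y}.Nonempty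
    · obtain ⟨z₀, hz₀, rfl⟩ := hne
      obtain ⟨Λ, -, hΛ⟩ := f.coef hcx hr hy (injY z₀ hz₀)
      obtain ⟨C, hC⟩ := hX.bdd.exists_norm_le
      refine ((Λ (g (0, z₀))).lipschitz.isBounded_image (isBounded_closedBall (x := (0 : E)) (r := C))).subset ?_
      rintro _ ⟨z, ⟨hz, e⟩, rfl⟩
      exact ⟨_, mem_closedBall_zero_iff.2 (hc.four_le 1 hC hz), by rw [h1 z hz, e, (hΛ.self_of_nhdsWithin hy).1]⟩
    · rw [not_nonempty_iff_eq_empty.1 hne, image_empty]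
      exact Bornology.isBounded_empty

end Crest.Agent.R264
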